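import Vale.Agent.P121.Solve

/-!
# The contact inequality on one sheet, and Lipschitz estimates for solutions
-/

open scoped RealInnerProductSpace

namespace Vale.Agent.P121

set_option linter.unusedSectionVars false
set_option linter.unusedVariables false

variable {V : Type*} [NormedAddCommGroup V] [InnerProductSpace ℝ V]

/-- The real Coulomb cost (only meaningful for pairwise distinct points). -/
noncomputable def cR (x y z : V) : ℝ := ‖x - y‖⁻¹ + ‖x - z‖⁻¹ + ‖y - z‖⁻¹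

/-- The potential on the central cluster. -/
noncomputable def Wf (x : V) : ℝ := 2 - 200 * ‖x‖ ^ 2

/-- The potential on the cluster near `-e`. -/
noncomputable def v2f (e z : V) : ℝ := 1 / 4 + (5 / 4) * ⟪e, z + e⟫ - 10 * ‖z + e‖ ^ 2

lemma quad_le {q a : ℝ} (hq : 0 ≤ q) (ha : 4 / 5 ≤ a) : q / (2 * a ^ 3) ≤ q := by
  have h : (1 : ℝ) ≤ 2 * a ^ 3 := by
    have : (4 / 5 : ℝ) ^ 3 ≤ a ^ 3 := by gcongr
    norm_num at this ⊢
    linarith
  exact div_le_self hq h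

/-- The contact inequality. -/
theorem contact_ineq {e x y z x' z' : V} (he : ‖e‖ = 1) (hx : ‖x‖ ≤ 1 / 400000)
    (h : IsSol e x y z) (h1 : x' ≠ y) (h2 : x' ≠ z') (h3 : y ≠ z') :
    cR x y z - Wf x - v2f e z + ‖x' - x‖ ^ 2 + ‖z' - z‖ ^ 2 ≤ cR x' y z' - Wf x' - v2f e z' := by
  have hb1 := band_yx he hx h.hy
  have hb2 := band_xz he hx h.hz
  have hb3 := band_yz he h.hy h.hz
  have hxy : x - y ≠ 0 := by
    rw [← norm_pos_iff, norm_sub_rev]; linarith [hb1.1]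
  have hxz : x - z ≠ 0 := by
    rw [← norm_pos_iff]; linarith [hb2.1]
  have hyz : y - z ≠ 0 := by
    rw [← norm_pos_iff]; linarith [hb3.1]
  set ξ := x' - x with hξ
  set ζ := z' - z with hζ
  have t1 := phi_tangent (v := x - y) (v' := x' - y) hxy (sub_ne_zero.mpr h1)
  have t2 := phi_tangent (v := x - z) (v' := x' - z') hxz (sub_ne_zero.mpr h2)
  have t3 := phi_tangent (v := y - z) (v' := y - z') hyz (sub_ne_zero.mpr h3)
  have e1 : x' - y - (x - y) = ξ := by rw [hξ]; abel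
  have e2 : x' - z' - (x - z) = ξ - ζ := by rw [hξ, hζ]; abel
  have e3 : y - z' - (y - z) = -ζ := by rw [hζ]; abel
  rw [e1] at t1
  rw [e2] at t2
  rw [e3, norm_neg, inner_neg_right] at t3
  rw [inner_sub_right] at t2
  -- stationarity in `x`
  have s1 : ⟪fld (y - x), ξ⟫ + ⟪fld (z - x), ξ⟫ = -400 * ⟪x, ξ⟫ := by
    have := congrArg (fun v => ⟪v, ξ⟫) h.s1
    simpa [inner_add_left, inner_smul_left] using this
  have s1a : fld (x - y) = - fld (y - x) := by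
    rw [← fld_neg, neg_sub]
  have s1b : fld (x - z) = - fld (z - x) := by
    rw [← fld_neg, neg_sub]
  -- stationarity in `z`
  have s2 : ⟪fld (x - z), ζ⟫ + ⟪fld (y - z), ζ⟫ = (5 / 4) * ⟪e, ζ⟫ - 20 * ⟪z + e, ζ⟫ := by
    have h5 := congrArg (fun v => ⟪v, ζ⟫) h.s2
    simp [inner_add_left, inner_sub_left, inner_smul_left] at h5
    rw [inner_add_left]
    linarith
  -- expansions of the potentials
  have e4 : ‖x'‖ ^ 2 = ‖x‖ ^ 2 + 2 * ⟪x, ξ⟫ + ‖ξ‖ ^ 2 := by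
    have : x' = x + ξ := by rw [hξ]; abel
    rw [this, norm_add_sq_real]
  have e5 : z' + e = (z + e) + ζ := by rw [hζ]; abel
  have e6 : ‖z' + e‖ ^ 2 = ‖z + e‖ ^ 2 + 2 * ⟪z + e, ζ⟫ + ‖ζ‖ ^ 2 := by
    rw [e5, norm_add_sq_real]
  have e7 : ⟪e, z' + e⟫ = ⟪e, z + e⟫ + ⟪e, ζ⟫ := by
    rw [e5, inner_add_right]
  -- the quadratic remainders
  have q1 : ‖ξ‖ ^ 2 / (2 * ‖x - y‖ ^ 3) ≤ ‖ξ‖ ^ 2 :=
    quad_le (by positivity) (by rw [norm_sub_rev]; exact hb1.1)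
  have q2 : ‖ξ - ζ‖ ^ 2 / (2 * ‖x - z‖ ^ 3) ≤ ‖ξ - ζ‖ ^ 2 :=
    quad_le (by positivity) hb2.1
  have q3 : ‖ζ‖ ^ 2 / (2 * ‖y - z‖ ^ 3) ≤ ‖ζ‖ ^ 2 :=
    quad_le (by positivity) (by linarith [hb3.1])
  have q4 : ‖ξ - ζ‖ ^ 2 ≤ 2 * ‖ξ‖ ^ 2 + 2 * ‖ζ‖ ^ 2 := by
    have h5 : ‖ξ - ζ‖ ≤ ‖ξ‖ + ‖ζ‖ := norm_sub_le _ _
    have h6 : ‖ξ - ζ‖ ^ 2 ≤ (‖ξ‖ + ‖ζ‖) ^ 2 := by gcongr
    nlinarith [sq_nonneg (‖ξ‖ - ‖ζ‖)]
  rw [s1a, inner_neg_left] at t1
  rw [s1b] at t2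
  simp only [inner_neg_left] at t2
  rw [s1b, inner_neg_left] at s2
  simp only [cR, Wf, v2f]
  rw [e4, e6, e7]
  have hξ0 : 0 ≤ ‖ξ‖ ^ 2 := by positivity
  have hζ0 : 0 ≤ ‖ζ‖ ^ 2 := by positivity
  nlinarith [t1, t2, t3, s1, s2, q1, q2, q3, q4]

/-- Lipschitz estimates for solutions of the stationarity system. -/
theorem sol_est {e x y z x' y' z' : V} (he : ‖e‖ = 1) (hx : ‖x‖ ≤ 1 / 400000)
    (hx' : ‖x'‖ ≤ 1 / 400000) (h : IsSol e x y z) (h' : IsSol e x' y' z') :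
    90 * ‖x - x'‖ ≤ ‖y - y'‖ ∧ ‖x - x'‖ ≤ 6 * ‖z - z'‖ ∧ ‖y - y'‖ ≤ 1100 * ‖x - x'‖ ∧
      ‖z - z'‖ ≤ 36 * ‖x - x'‖ := by
  have b1 := band_yx he hx h.hy
  have b1' := band_yx he hx' h'.hy
  have b2 := band_xz he hx h.hz
  have b2' := band_xz he hx' h'.hz
  have b3 := band_yz he h.hy h.hz
  have b3' := band_yz he h'.hy h'.hz
  have b4 : 4 / 5 ≤ ‖z - x‖ ∧ ‖z - x‖ ≤ 6 / 5 := by rw [norm_sub_rev]; exact b2
  have b4' : 4 / 5 ≤ ‖z' - x'‖ ∧ ‖z' - x'‖ ≤ 6 / 5 := by rw [norm_sub_rev]; exact b2'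
  set dx := ‖x - x'‖ with hdx
  set dy := ‖y - y'‖ with hdy
  set dz := ‖z - z'‖ with hdz
  have hdx0 : 0 ≤ dx := norm_nonneg _
  have hdy0 : 0 ≤ dy := norm_nonneg _
  have hdz0 : 0 ≤ dz := norm_nonneg _
  -- differences of arguments
  have a1 : ‖(y - x) - (y' - x')‖ ≤ dy + dx := by
    have : (y - x) - (y' - x') = (y - y') - (x - x') := by abel
    rw [this]; exact norm_sub_le _ _
  have a1' : dy - dx ≤ ‖(y - x) - (y' - x')‖ := by
    have : y - y' = ((y - x) - (y' - x')) + (x - x') := by abel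
    have h2 : dy ≤ ‖(y - x) - (y' - x')‖ + dx := by
      rw [hdy, this]; exact norm_add_le _ _
    linarith
  have a2 : ‖(z - x) - (z' - x')‖ ≤ dz + dx := by
    have : (z - x) - (z' - x') = (z - z') - (x - x') := by abel
    rw [this]; exact norm_sub_le _ _
  have a3 : ‖(x - z) - (x' - z')‖ ≤ dx + dz := by
    have : (x - z) - (x' - z') = (x - x') - (z - z') := by abel
    rw [this]; exact norm_sub_le _ _
  have a4 : ‖(y - z) - (y' - z')‖ ≤ dy + dz := by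
    have : (y - z) - (y' - z') = (y - y') - (z - z') := by abel
    rw [this]; exact norm_sub_le _ _
  have a4' : dy - dz ≤ ‖(y - z) - (y' - z')‖ := by
    have : y - y' = ((y - z) - (y' - z')) + (z - z') := by abel
    have h2 : dy ≤ ‖(y - z) - (y' - z')‖ + dz := by
      rw [hdy, this]; exact norm_add_le _ _
    linarith
  -- field differences
  have f1 : ‖fld (y - x) - fld (y' - x')‖ ≤ 4 * ‖(y - x) - (y' - x')‖ := fld_lip_unit b1.1 b1'.1
  have f1' : (1 / 2) * ‖(y - x) - (y' - x')‖ ≤ ‖fld (y - x) - fld (y' - x')‖ :=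
    fld_low_unit (ne_zero_of_lower (by norm_num) b1.1) (ne_zero_of_lower (by norm_num) b1'.1)
      b1.2 b1'.2
  have f2 : ‖fld (z - x) - fld (z' - x')‖ ≤ 4 * ‖(z - x) - (z' - x')‖ := fld_lip_unit b4.1 b4'.1
  have f3 : ‖fld (x - z) - fld (x' - z')‖ ≤ 4 * ‖(x - z) - (x' - z')‖ := fld_lip_unit b2.1 b2'.1
  have f4 : ‖fld (y - z) - fld (y' - z')‖ ≤ (1 / 2) * ‖(y - z) - (y' - z')‖ :=
    fld_lip_two b3.1 b3'.1
  have f4' : (1 / 11) * ‖(y - z) - (y' - z')‖ ≤ ‖fld (y - z) - fld (y' - z')‖ :=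
    fld_low_two (ne_zero_of_lower (by norm_num) b3.1) (ne_zero_of_lower (by norm_num) b3'.1)
      b3.2 b3'.2
  -- the equations
  have E1 : (400 : ℝ) • (x - x') =
      -(fld (y - x) - fld (y' - x')) - (fld (z - x) - fld (z' - x')) := by
    have h1 := h.s1
    have h2 := h'.s1
    have : (400 : ℝ) • (x - x') = (-400 : ℝ) • x' - (-400 : ℝ) • x := by module
    rw [this, ← h1, ← h2]
    abel
  have E2 : (20 : ℝ) • (z - z') =
      -(fld (x - z) - fld (x' - z')) - (fld (y - z) - fld (y' - z')) := by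
    have h1 := h.s2
    have h2 := h'.s2
    have : fld (x - z) = (5 / 4 : ℝ) • e - (20 : ℝ) • (z + e) - fld (y - z) := by
      rw [← h1]; abel
    have h3 : fld (x' - z') = (5 / 4 : ℝ) • e - (20 : ℝ) • (z' + e) - fld (y' - z') := by
      rw [← h2]; abel
    rw [this, h3]
    module
  have n1 : ‖(400 : ℝ) • (x - x')‖ = 400 * dx := by
    rw [norm_smul]; norm_num [hdx]
  have n2 : ‖(20 : ℝ) • (z - z')‖ = 20 * dz := by
    rw [norm_smul]; norm_num [hdz]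
  -- (A)
  have A : 400 * dx ≤ 4 * (dy + dx) + 4 * (dz + dx) := by
    rw [← n1, E1]
    calc _ ≤ ‖-(fld (y - x) - fld (y' - x'))‖ + ‖fld (z - x) - fld (z' - x')‖ := norm_sub_le _ _
      _ ≤ _ := by rw [norm_neg]; linarith
  -- (B)
  have B : (1 / 2) * (dy - dx) ≤ 400 * dx + 4 * (dz + dx) := by
    have E1' : fld (y - x) - fld (y' - x') =
        -((400 : ℝ) • (x - x')) - (fld (z - x) - fld (z' - x')) := by
      rw [E1]; abel
    have : ‖fld (y - x) - fld (y' - x')‖ ≤ 400 * dx + 4 * (dz + dx) := by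
      rw [E1']
      calc _ ≤ ‖-((400 : ℝ) • (x - x'))‖ + ‖fld (z - x) - fld (z' - x')‖ := norm_sub_le _ _
        _ ≤ _ := by rw [norm_neg, n1]; linarith
    linarith
  -- (C)
  have C : 20 * dz ≤ 4 * (dx + dz) + (1 / 2) * (dy + dz) := by
    rw [← n2, E2]
    calc _ ≤ ‖-(fld (x - z) - fld (x' - z'))‖ + ‖fld (y - z) - fld (y' - z')‖ := norm_sub_le _ _
      _ ≤ _ := by rw [norm_neg]; linarith
  -- (D)
  have D : (1 / 11) * (dy - dz) ≤ 20 * dz + 4 * (dx + dz) := by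
    have E2' : fld (y - z) - fld (y' - z') =
        -((20 : ℝ) • (z - z')) - (fld (x - z) - fld (x' - z')) := by
      rw [E2]; abel
    have : ‖fld (y - z) - fld (y' - z')‖ ≤ 20 * dz + 4 * (dx + dz) := by
      rw [E2']
      calc _ ≤ ‖-((20 : ℝ) • (z - z'))‖ + ‖fld (x - z) - fld (x' - z')‖ := norm_sub_le _ _
        _ ≤ _ := by rw [norm_neg, n2]; linarith
    linarith
  refine ⟨by linarith, by linarith, by linarith, by linarith⟩

end Vale.Agent.P121
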