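import Mathlib

/-!
# P121: the three-marginal Coulomb transport problem on `ℝ³`

Definitions used in the statement of the hand-in.
-/

open MeasureTheory

namespace Vale.Agent.P121

/-- Euclidean three-space. -/
abbrev E3 : Type := EuclideanSpace ℝ (Fin 3)

/-- The Coulomb cost `1/|x-y| + 1/|x-z| + 1/|y-z|`, with value `+∞` when two coordinates
coincide (the inverse of `0` in `ENNReal` is `⊤`). -/
noncomputable def coulomb (x y z : E3) : ENNReal :=
  (‖x - y‖ₑ)⁻¹ + (‖x - z‖ₑ)⁻¹ + (‖y - z‖ₑ)⁻¹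

/-- `π` is a Borel measure on `(ℝ³)³` whose three coordinate marginals all equal `μ`. -/
def IsCoupling (μ : Measure E3) (π : Measure (E3 × E3 × E3)) : Prop :=
  π.map (fun p => p.1) = μ ∧ π.map (fun p => p.2.1) = μ ∧ π.map (fun p => p.2.2) = μ

/-- The Kantorovich value: the infimum of the total Coulomb cost over all couplings. -/
noncomputable def kantorovichValue (μ : Measure E3) : ENNReal :=
  ⨅ (π : Measure (E3 × E3 × E3)) (_ : IsCoupling μ π), ∫⁻ p, coulomb p.1 p.2.1 p.2.2 ∂π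

/-- The cost of the Monge plan `(Id, T₂, T₃)_# μ`. -/
noncomputable def mongeCost (μ : Measure E3) (T₂ T₃ : E3 → E3) : ENNReal :=
  ∫⁻ x, coulomb x (T₂ x) (T₃ x) ∂μ

/-- `(T₂, T₃)` is an optimal Monge plan for `μ`: Borel maps pushing `μ` to `μ`, whose cost equals
the Kantorovich value. -/
def IsOptimalMonge (μ : Measure E3) (T₂ T₃ : E3 → E3) : Prop :=
  Measurable T₂ ∧ Measurable T₃ ∧ μ.map T₂ = μ ∧ μ.map T₃ = μ ∧
    mongeCost μ T₂ T₃ = kantorovichValue μ

end Vale.Agent.P121
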