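import Mathlib

/-!
# The Coulomb field `u / |u|^3`: elementary inequalities
-/

open scoped RealInnerProductSpace

namespace Vale.Agent.P121

variable {V : Type*} [NormedAddCommGroup V] [InnerProductSpace ℝ V]

/-- The Coulomb field. -/
noncomputable def fld (u : V) : V := (‖u‖ ^ 3)⁻¹ • u

lemma fld_neg (u : V) : fld (-u) = - fld u := by
  simp [fld, smul_neg]

lemma inner_fld (u w : V) : ⟪fld u, w⟫ = (‖u‖ ^ 3)⁻¹ * ⟪u, w⟫ := by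
  simp [fld, inner_smul_left]

/-- The sharp tangent inequality for `1/|v|`. -/
lemma phi_tangent {v v' : V} (hv : v ≠ 0) (hv' : v' ≠ 0) :
    ‖v‖⁻¹ - ⟪fld v, v' - v⟫ - ‖v' - v‖ ^ 2 / (2 * ‖v‖ ^ 3) ≤ ‖v'‖⁻¹ := by
  have hr : 0 < ‖v‖ := norm_pos_iff.mpr hv
  have hr' : 0 < ‖v'‖ := norm_pos_iff.mpr hv'
  set r := ‖v‖ with hrdef
  set r' := ‖v'‖ with hr'def
  set t := ⟪v, v'⟫ with ht
  have h1 : ⟪fld v, v' - v⟫ = (r ^ 3)⁻¹ * (t - r ^ 2) := by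
    rw [inner_fld, inner_sub_right, real_inner_self_eq_norm_sq]
  have h2 : ‖v' - v‖ ^ 2 = r' ^ 2 - 2 * t + r ^ 2 := by
    rw [norm_sub_sq_real, real_inner_comm]
  rw [h1, h2]
  have key : r'⁻¹ - (r⁻¹ - (r ^ 3)⁻¹ * (t - r ^ 2) - (r' ^ 2 - 2 * t + r ^ 2) / (2 * r ^ 3))
      = (r - r') ^ 2 * (2 * r + r') / (2 * r ^ 3 * r') := by
    field_simp
    ring
  have hnn : 0 ≤ (r - r') ^ 2 * (2 * r + r') / (2 * r ^ 3 * r') := by positivity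
  linarith

/-- Norm-square identity for the difference of two field values. -/
lemma fld_sub_sq {u u' : V} (hu : u ≠ 0) (hu' : u' ≠ 0) :
    ‖fld u - fld u'‖ ^ 2 =
      (‖u‖ - ‖u'‖) ^ 2 * ((‖u‖ + ‖u'‖) ^ 2 / (‖u‖ ^ 4 * ‖u'‖ ^ 4)) +
        2 * (‖u‖ * ‖u'‖ - ⟪u, u'⟫) / (‖u‖ ^ 3 * ‖u'‖ ^ 3) := by
  have ha : 0 < ‖u‖ := norm_pos_iff.mpr hu
  have hb : 0 < ‖u'‖ := norm_pos_iff.mpr hu'
  rw [norm_sub_sq_real]
  have h1 : ‖fld u‖ = (‖u‖ ^ 2)⁻¹ := by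
    simp only [fld, norm_smul, norm_inv, norm_pow, norm_norm]
    field_simp
  have h2 : ‖fld u'‖ = (‖u'‖ ^ 2)⁻¹ := by
    simp only [fld, norm_smul, norm_inv, norm_pow, norm_norm]
    field_simp
  have h3 : ⟪fld u, fld u'⟫ = (‖u‖ ^ 3)⁻¹ * (‖u'‖ ^ 3)⁻¹ * ⟪u, u'⟫ := by
    simp only [fld, inner_smul_left, inner_smul_right]
    simp
    ring
  rw [h1, h2, h3]
  field_simp
  ring

lemma norm_sub_sq_eq {u u' : V} :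
    ‖u - u'‖ ^ 2 = (‖u‖ - ‖u'‖) ^ 2 + 2 * (‖u‖ * ‖u'‖ - ⟪u, u'⟫) := by
  rw [norm_sub_sq_real]; ring

lemma s_nonneg (u u' : V) : 0 ≤ ‖u‖ * ‖u'‖ - ⟪u, u'⟫ := by
  have := real_inner_le_norm u u'
  linarith

private lemma bound_P {a b d : ℝ} (hd : 0 < d) (ha : d ≤ a) (hb : d ≤ b) :
    (a + b) ^ 2 / (a ^ 4 * b ^ 4) ≤ 4 / d ^ 6 := by
  have ha0 : 0 < a := lt_of_lt_of_le hd ha
  have hb0 : 0 < b := lt_of_lt_of_le hd hb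
  rw [div_le_div_iff₀ (by positivity) (by positivity)]
  have h1 : d ^ 2 * d ^ 4 ≤ a ^ 2 * b ^ 4 := by gcongr
  have h2 : d ^ 3 * d ^ 3 ≤ a ^ 3 * b ^ 3 := by gcongr
  have h3 : d ^ 4 * d ^ 2 ≤ a ^ 4 * b ^ 2 := by gcongr
  have e : (a + b) ^ 2 * d ^ 6 =
      a ^ 2 * (d ^ 2 * d ^ 4) + 2 * (a * b) * (d ^ 3 * d ^ 3) + b ^ 2 * (d ^ 4 * d ^ 2) := by ring
  rw [e]
  have h1' : a ^ 2 * (d ^ 2 * d ^ 4) ≤ a ^ 2 * (a ^ 2 * b ^ 4) := by gcongr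
  have h2' : 2 * (a * b) * (d ^ 3 * d ^ 3) ≤ 2 * (a * b) * (a ^ 3 * b ^ 3) := by gcongr
  have h3' : b ^ 2 * (d ^ 4 * d ^ 2) ≤ b ^ 2 * (a ^ 4 * b ^ 2) := by gcongr
  nlinarith [h1', h2', h3']

private lemma bound_Q {a b d : ℝ} (hd : 0 < d) (ha : d ≤ a) (hb : d ≤ b) :
    1 / (a ^ 3 * b ^ 3) ≤ 1 / d ^ 6 := by
  have ha0 : 0 < a := lt_of_lt_of_le hd ha
  have hb0 : 0 < b := lt_of_lt_of_le hd hb
  apply one_div_le_one_div_of_le (by positivity)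
  have h2 : d ^ 3 * d ^ 3 ≤ a ^ 3 * b ^ 3 := by gcongr
  nlinarith [h2]

private lemma bound_P' {a b D : ℝ} (ha0 : 0 < a) (hb0 : 0 < b) (ha : a ≤ D) (hb : b ≤ D) :
    1 / D ^ 6 ≤ (a + b) ^ 2 / (a ^ 4 * b ^ 4) := by
  have hD : 0 < D := lt_of_lt_of_le ha0 ha
  rw [div_le_div_iff₀ (by positivity) (by positivity)]
  have h2 : a ^ 3 * b ^ 3 ≤ D ^ 3 * D ^ 3 := by gcongr
  have h4 : a * b * (a ^ 3 * b ^ 3) ≤ a * b * (D ^ 3 * D ^ 3) := by gcongr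
  have h5 : 0 ≤ a * b * (D ^ 3 * D ^ 3) := by positivity
  have e : (a + b) ^ 2 * D ^ 6 = (a - b) ^ 2 * D ^ 6 + 4 * (a * b * (D ^ 3 * D ^ 3)) := by ring
  rw [e]
  have h6 : 0 ≤ (a - b) ^ 2 * D ^ 6 := by positivity
  nlinarith [h4, h5, h6]

private lemma bound_Q' {a b D : ℝ} (ha0 : 0 < a) (hb0 : 0 < b) (ha : a ≤ D) (hb : b ≤ D) :
    1 / D ^ 6 ≤ 1 / (a ^ 3 * b ^ 3) := by
  have hD : 0 < D := lt_of_lt_of_le ha0 ha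
  apply one_div_le_one_div_of_le (by positivity)
  have h2 : a ^ 3 * b ^ 3 ≤ D ^ 3 * D ^ 3 := by gcongr
  nlinarith [h2]

/-- Upper Lipschitz bound for the field away from the origin. -/
lemma fld_lip {d : ℝ} (hd : 0 < d) {u u' : V} (hu : d ≤ ‖u‖) (hu' : d ≤ ‖u'‖) :
    ‖fld u - fld u'‖ ≤ (2 / d ^ 3) * ‖u - u'‖ := by
  have ha : 0 < ‖u‖ := lt_of_lt_of_le hd hu
  have hb : 0 < ‖u'‖ := lt_of_lt_of_le hd hu'
  have hune : u ≠ 0 := norm_pos_iff.mp ha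
  have hune' : u' ≠ 0 := norm_pos_iff.mp hb
  have hs := s_nonneg u u'
  have hP := bound_P hd hu hu'
  have hQ := bound_Q hd hu hu'
  refine (sq_le_sq₀ (norm_nonneg _) (by positivity)).mp ?_
  rw [fld_sub_sq hune hune', mul_pow, norm_sub_sq_eq]
  set s := ‖u‖ * ‖u'‖ - ⟪u, u'⟫ with hsdef
  set a := ‖u‖
  set b := ‖u'‖
  have e1 : (2 / d ^ 3) ^ 2 = 4 / d ^ 6 := by
    rw [div_pow]; norm_num; ring
  rw [e1]
  have h1 : (a - b) ^ 2 * ((a + b) ^ 2 / (a ^ 4 * b ^ 4)) ≤ (a - b) ^ 2 * (4 / d ^ 6) := by gcongr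
  have h2 : 2 * s / (a ^ 3 * b ^ 3) = (2 * s) * (1 / (a ^ 3 * b ^ 3)) := by ring
  have h3 : (2 * s) * (1 / (a ^ 3 * b ^ 3)) ≤ (2 * s) * (1 / d ^ 6) := by gcongr
  have h4 : (2 * s) * (1 / d ^ 6) ≤ (2 * s) * (4 / d ^ 6) := by
    have : (1 : ℝ) / d ^ 6 ≤ 4 / d ^ 6 := by gcongr; norm_num
    gcongr
  rw [h2]
  nlinarith [h1, h3, h4]

/-- Lower Lipschitz bound for the field on a bounded set. -/
lemma fld_lower {D : ℝ} {u u' : V} (hu0 : u ≠ 0) (hu0' : u' ≠ 0) (hu : ‖u‖ ≤ D) (hu' : ‖u'‖ ≤ D) :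
    (1 / D ^ 3) * ‖u - u'‖ ≤ ‖fld u - fld u'‖ := by
  have ha : 0 < ‖u‖ := norm_pos_iff.mpr hu0
  have hb : 0 < ‖u'‖ := norm_pos_iff.mpr hu0'
  have hD : 0 < D := lt_of_lt_of_le ha hu
  have hs := s_nonneg u u'
  have hP := bound_P' ha hb hu hu'
  have hQ := bound_Q' ha hb hu hu'
  refine (sq_le_sq₀ (by positivity) (norm_nonneg _)).mp ?_
  rw [fld_sub_sq hu0 hu0', mul_pow, norm_sub_sq_eq]
  set s := ‖u‖ * ‖u'‖ - ⟪u, u'⟫ with hsdef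
  set a := ‖u‖
  set b := ‖u'‖
  have e1 : (1 / D ^ 3) ^ 2 = 1 / D ^ 6 := by field_simp
  rw [e1]
  have h1 : (a - b) ^ 2 * (1 / D ^ 6) ≤ (a - b) ^ 2 * ((a + b) ^ 2 / (a ^ 4 * b ^ 4)) := by gcongr
  have h2 : 2 * s / (a ^ 3 * b ^ 3) = (2 * s) * (1 / (a ^ 3 * b ^ 3)) := by ring
  have h3 : (2 * s) * (1 / D ^ 6) ≤ (2 * s) * (1 / (a ^ 3 * b ^ 3)) := by gcongr
  rw [h2]
  nlinarith [h1, h3]

/-- A right inverse of the field. -/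
noncomputable def psi (W : V) : V := (Real.sqrt ‖W‖ / ‖W‖ ^ 2) • W

lemma norm_psi {W : V} (hW : W ≠ 0) : ‖psi W‖ = (Real.sqrt ‖W‖)⁻¹ := by
  have hn : 0 < ‖W‖ := norm_pos_iff.mpr hW
  have hs : 0 < Real.sqrt ‖W‖ := Real.sqrt_pos.mpr hn
  have hss : Real.sqrt ‖W‖ * Real.sqrt ‖W‖ = ‖W‖ := Real.mul_self_sqrt hn.le
  unfold psi
  rw [norm_smul, Real.norm_of_nonneg (by positivity)]
  set s := Real.sqrt ‖W‖
  have h : ‖W‖ = s * s := hss.symm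
  rw [h]
  field_simp

lemma fld_psi {W : V} (hW : W ≠ 0) : fld (psi W) = W := by
  have hn : 0 < ‖W‖ := norm_pos_iff.mpr hW
  have hs : 0 < Real.sqrt ‖W‖ := Real.sqrt_pos.mpr hn
  have hss : Real.sqrt ‖W‖ * Real.sqrt ‖W‖ = ‖W‖ := Real.mul_self_sqrt hn.le
  unfold fld
  rw [norm_psi hW]
  unfold psi
  rw [smul_smul]
  have : ((Real.sqrt ‖W‖)⁻¹ ^ 3)⁻¹ * (Real.sqrt ‖W‖ / ‖W‖ ^ 2) = 1 := by
    set s := Real.sqrt ‖W‖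
    have h : ‖W‖ = s * s := hss.symm
    rw [h]
    field_simp
  rw [this, one_smul]

lemma psi_ne_zero {W : V} (hW : W ≠ 0) : psi W ≠ 0 := by
  have hn : 0 < ‖W‖ := norm_pos_iff.mpr hW
  have hs : 0 < Real.sqrt ‖W‖ := Real.sqrt_pos.mpr hn
  rw [← norm_pos_iff, norm_psi hW]
  positivity

end Vale.Agent.P121
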