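import Vale.Agent.P121.Maps

/-!
# The dual potentials and the global dual inequality
-/

open scoped RealInnerProductSpace NNReal ENNReal
open Metric MeasureTheory

namespace Vale.Agent.P121

set_option linter.unusedSectionVars false
set_option linter.unusedVariables false

noncomputable section

/-- The potential on the cluster near `-e₁`. -/
def v2R (z : E3) : ℝ := v2f e₁ z

/-- The value of the potential at `Y g`. -/
def Gf (g : E3) : ℝ := cR g (Y g) (Z g) - Wf g - v2R (Z g)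

/-- The potential on the cluster near `e₁`. -/
def v1f (p : E3) : ℝ := Gf (Yinv p)

lemma v1f_Y {g : E3} (hg : g ∈ Ab) : v1f (Y g) = Gf g := by
  rw [v1f, Yinv_Y hg]

/-- The potential on the two corner clusters of the first sheet. -/
def uC (p : E3) : ℝ := C1.indicator v1f p + C2.indicator v2R p

/-- The potential, as a real function. -/
def uR (p : E3) : ℝ := Ab.indicator Wf p + uC p + uC (rho p)

lemma uC_of_A {p : E3} (h : p ∈ Ab) : uC p = 0 := by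
  have h1 : p ∉ C1 := fun h' => Ab_not_C1 h h'
  have h2 : p ∉ C2 := fun h' => Ab_not_C2 h h'
  simp [uC, h1, h2]

lemma uC_C1 {p : E3} (h : p ∈ C1) : uC p = v1f p := by
  have h2 : p ∉ C2 := fun h' => C1_not_C2 h h'
  simp [uC, h, h2]

lemma uC_C2 {p : E3} (h : p ∈ C2) : uC p = v2R p := by
  have h2 : p ∉ C1 := fun h' => C1_not_C2 h' h
  simp [uC, h, h2]

lemma uC_C3 {p : E3} (h : p ∈ C3) : uC p = 0 := by
  have h1 : p ∉ C1 := fun h' => C1_not_C3 h' h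
  have h2 : p ∉ C2 := fun h' => C2_not_C3 h' h
  simp [uC, h1, h2]

lemma uC_C4 {p : E3} (h : p ∈ C4) : uC p = 0 := by
  have h1 : p ∉ C1 := fun h' => C1_not_C4 h' h
  have h2 : p ∉ C2 := fun h' => C2_not_C4 h' h
  simp [uC, h1, h2]

lemma uR_A {p : E3} (h : p ∈ Ab) : uR p = Wf p := by
  simp [uR, h, uC_of_A h, uC_of_A (rho_mem_Ab h)]

lemma uR_C1 {p : E3} (h : p ∈ C1) : uR p = v1f p := by
  have h1 : p ∉ Ab := fun h' => Ab_not_C1 h' h
  simp [uR, h1, uC_C1 h, uC_C3 (rho_mem_C3 h)]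

lemma uR_C2 {p : E3} (h : p ∈ C2) : uR p = v2R p := by
  have h1 : p ∉ Ab := fun h' => Ab_not_C2 h' h
  simp [uR, h1, uC_C2 h, uC_C4 (rho_mem_C4 h)]

lemma Wf_rho (p : E3) : Wf (rho p) = Wf p := by
  simp [Wf]

lemma uR_rho (p : E3) : uR (rho p) = uR p := by
  have h1 : Ab.indicator Wf (rho p) = Ab.indicator Wf p := by
    by_cases h : p ∈ Ab
    · simp [h, rho_mem_Ab h, Wf_rho]
    · have h' : rho p ∉ Ab := fun h' => h (by simpa [rho_rho] using rho_mem_Ab h')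
      simp [h, h']
  simp only [uR, h1, rho_rho]
  ring

lemma uR_C3 {p : E3} (h : p ∈ C3) : uR p = v1f (rho p) := by
  rw [← uR_rho, uR_C1 (rho_mem_C1 h)]

lemma uR_C4 {p : E3} (h : p ∈ C4) : uR p = v2R (rho p) := by
  rw [← uR_rho, uR_C2 (rho_mem_C2 h)]

/-! ### Bounds on the potentials -/

lemma Wf_bounds {p : E3} (h : p ∈ Ab) : 19999 / 10000 ≤ Wf p ∧ Wf p ≤ 2 := by
  have h' := mem_Ab.mp h
  have h0 := norm_nonneg p
  have h2 : ‖p‖ ^ 2 ≤ (1 / 400000) ^ 2 := by gcongr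
  constructor
  · simp only [Wf]; norm_num at h2 ⊢; linarith
  · simp only [Wf]; nlinarith [sq_nonneg ‖p‖]

lemma v2R_bounds {z : E3} (h : ‖z + e₁‖ ≤ 1 / 1000) : 248 / 1000 ≤ v2R z ∧ v2R z ≤ 252 / 1000 := by
  have h0 := norm_nonneg (z + e₁)
  have h1 : |⟪e₁, z + e₁⟫| ≤ ‖e₁‖ * ‖z + e₁‖ := abs_real_inner_le_norm _ _
  rw [norm_e₁, one_mul] at h1
  have h2 := abs_le.mp h1
  have h3 : ‖z + e₁‖ ^ 2 ≤ (1 / 1000) ^ 2 := by gcongr
  simp only [v2R, v2f]
  constructor <;> norm_num at h3 ⊢ <;> nlinarith [h2.1, h2.2, sq_nonneg ‖z + e₁‖]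

lemma v2R_bounds_C2 {z : E3} (h : z ∈ C2) : 248 / 1000 ≤ v2R z ∧ v2R z ≤ 252 / 1000 := by
  have := near_C2 h
  rw [sub_neg_eq_add] at this
  exact v2R_bounds this

lemma norm_near {u c : E3} {ε : ℝ} (h : ‖u - c‖ ≤ ε) : ‖c‖ - ε ≤ ‖u‖ ∧ ‖u‖ ≤ ‖c‖ + ε := by
  constructor
  · have := norm_sub_le u (u - c)
    simp only [sub_sub_cancel] at this
    linarith
  · have := norm_add_le c (u - c)
    simp only [add_sub_cancel] at this
    linarith

lemma inv_band {r a b : ℝ} (ha : 0 < a) (h1 : a ≤ r) (h2 : r ≤ b) : b⁻¹ ≤ r⁻¹ ∧ r⁻¹ ≤ a⁻¹ :=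
  ⟨inv_anti₀ (by linarith) h2, inv_anti₀ ha h1⟩

lemma Gf_bounds {g : E3} (hg : g ∈ Ab) : 1 / 5 ≤ Gf g ∧ Gf g ≤ 3 / 10 := by
  have hs := sol_YZ hg
  have hx := mem_Ab.mp hg
  have h1 : ‖g - Y g - (-e₁)‖ ≤ 14 / 1000 := by
    have : g - Y g - (-e₁) = g - (Y g - e₁) := by abel
    rw [this]
    have h := norm_sub_le g (Y g - e₁)
    have := hs.hy
    linarith
  have h2 := xz_sub_e hx hs.hz
  have h3 := yz_sub_two hs.hy hs.hz
  have n1 := norm_near h1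
  have n2 := norm_near h2
  have n3 := norm_near h3
  rw [norm_neg, norm_e₁] at n1
  rw [norm_e₁] at n2
  have h2e : ‖(2 : ℝ) • e₁‖ = 2 := by rw [norm_smul, norm_e₁]; norm_num
  rw [h2e] at n3
  have i1 := inv_band (r := ‖g - Y g‖) (a := 98 / 100) (b := 102 / 100) (by norm_num)
    (by linarith [n1.1]) (by linarith [n1.2])
  have i2 := inv_band (r := ‖g - Z g‖) (a := 99 / 100) (b := 101 / 100) (by norm_num)
    (by linarith [n2.1]) (by linarith [n2.2])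
  have i3 := inv_band (r := ‖Y g - Z g‖) (a := 198 / 100) (b := 202 / 100) (by norm_num)
    (by linarith [n3.1]) (by linarith [n3.2])
  have w := Wf_bounds hg
  have v := v2R_bounds hs.hz
  simp only [Gf, cR]
  norm_num at i1 i2 i3 ⊢
  constructor <;> linarith [i1.1, i1.2, i2.1, i2.2, i3.1, i3.2, w.1, w.2, v.1, v.2]

lemma v1f_bounds {p : E3} (h : p ∈ C1) : 1 / 5 ≤ v1f p ∧ v1f p ≤ 3 / 10 :=
  Gf_bounds (Yinv_mem h)

/-- The support of the measure. -/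
def Sb : Set E3 := Ab ∪ C1 ∪ C2 ∪ C3 ∪ C4

/-- The corner clusters. -/
def Cor : Set E3 := C1 ∪ C2 ∪ C3 ∪ C4

lemma mem_Sb {p : E3} : p ∈ Sb ↔ p ∈ Ab ∨ p ∈ Cor := by
  simp only [Sb, Cor, Set.mem_union]
  tauto

lemma measurableSet_Sb : MeasurableSet Sb :=
  ((((measurableSet_Ab.union isCompact_C1.measurableSet).union isCompact_C2.measurableSet).union
    isCompact_C3.measurableSet).union isCompact_C4.measurableSet)

lemma uR_Cor_bounds {p : E3} (h : p ∈ Cor) : 1 / 5 ≤ uR p ∧ uR p ≤ 3 / 10 := by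
  rcases h with ((h | h) | h) | h
  · rw [uR_C1 h]; exact v1f_bounds h
  · rw [uR_C2 h]; have := v2R_bounds_C2 h; constructor <;> linarith [this.1, this.2]
  · rw [uR_C3 h]; exact v1f_bounds (rho_mem_C1 h)
  · rw [uR_C4 h]; have := v2R_bounds_C2 (rho_mem_C2 h); constructor <;> linarith [this.1, this.2]

lemma uR_A_bounds {p : E3} (h : p ∈ Ab) : 1 ≤ uR p ∧ uR p ≤ 2 := by
  rw [uR_A h]
  have := Wf_bounds h
  constructor <;> linarith [this.1, this.2]

lemma uR_nonneg_of_mem {p : E3} (h : p ∈ Sb) : 0 ≤ uR p := by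
  rcases mem_Sb.mp h with h | h
  · linarith [(uR_A_bounds h).1]
  · linarith [(uR_Cor_bounds h).1]

lemma uR_zero_of_not_mem {p : E3} (h : p ∉ Sb) : uR p = 0 := by
  have hn : p ∉ Ab ∧ p ∉ C1 ∧ p ∉ C2 ∧ p ∉ C3 ∧ p ∉ C4 := by
    simp only [Sb, Set.mem_union, not_or] at h
    tauto
  obtain ⟨h0, h1, h2, h3, h4⟩ := hn
  have h5 : rho p ∉ C1 := fun h' => h3 (by simpa [rho_rho] using rho_mem_C3 h')
  have h6 : rho p ∉ C2 := fun h' => h4 (by simpa [rho_rho] using rho_mem_C4 h')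
  simp [uR, uC, h0, h1, h2, h5, h6]

lemma uR_le_two (p : E3) : uR p ≤ 2 := by
  by_cases h : p ∈ Sb
  · rcases mem_Sb.mp h with h | h
    · exact (uR_A_bounds h).2
    · linarith [(uR_Cor_bounds h).2]
  · rw [uR_zero_of_not_mem h]; norm_num

lemma uR_nonneg (p : E3) : 0 ≤ uR p := by
  by_cases h : p ∈ Sb
  · exact uR_nonneg_of_mem h
  · rw [uR_zero_of_not_mem h]

/-! ### Contact triples -/

/-- `(p, q, s)` is a permutation of `(a, b, c)`. -/
def Perm3 (a b c p q s : E3) : Prop :=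
  (p = a ∧ q = b ∧ s = c) ∨ (p = a ∧ q = c ∧ s = b) ∨ (p = b ∧ q = a ∧ s = c) ∨
    (p = b ∧ q = c ∧ s = a) ∨ (p = c ∧ q = a ∧ s = b) ∨ (p = c ∧ q = b ∧ s = a)

lemma Perm3.swap12 {a b c p q s : E3} (h : Perm3 a b c p q s) : Perm3 a b c q p s := by
  unfold Perm3 at *; tauto

lemma Perm3.swap23 {a b c p q s : E3} (h : Perm3 a b c p q s) : Perm3 a b c p s q := by
  unfold Perm3 at *; tauto

/-- A contact triple. -/
def Contact (p q s : E3) : Prop :=
  ∃ g ∈ Ab, Perm3 g (Y g) (Z g) p q s ∨ Perm3 g (Y' g) (Z' g) p q s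

lemma Contact.swap12 {p q s : E3} (h : Contact p q s) : Contact q p s := by
  obtain ⟨g, hg, h | h⟩ := h
  · exact ⟨g, hg, Or.inl h.swap12⟩
  · exact ⟨g, hg, Or.inr h.swap12⟩

lemma Contact.swap23 {p q s : E3} (h : Contact p q s) : Contact p s q := by
  obtain ⟨g, hg, h | h⟩ := h
  · exact ⟨g, hg, Or.inl h.swap23⟩
  · exact ⟨g, hg, Or.inr h.swap23⟩

lemma Perm3.map_rho {a b c p q s : E3} (h : Perm3 (rho a) (rho b) (rho c) (rho p) (rho q) (rho s)) :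
    Perm3 a b c p q s := by
  unfold Perm3 at *
  simpa only [EmbeddingLike.apply_eq_iff_eq] using h

lemma Contact.of_rho {p q s : E3} (h : Contact (rho p) (rho q) (rho s)) : Contact p q s := by
  obtain ⟨g, hg, h | h⟩ := h
  · refine ⟨rho g, rho_mem_Ab hg, Or.inr ?_⟩
    apply Perm3.map_rho
    rw [rho_rho, rho_Y', rho_Z', rho_rho]
    exact h
  · refine ⟨rho g, rho_mem_Ab hg, Or.inl ?_⟩
    apply Perm3.map_rho
    rw [rho_rho]
    exact h

/-! ### The real dual inequality -/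

/-- The dual inequality together with the description of its equality case. -/
def Rel (p q s : E3) : Prop :=
  uR p + uR q + uR s ≤ cR p q s ∧ (uR p + uR q + uR s = cR p q s → Contact p q s)

lemma cR_swap12 (p q s : E3) : cR q p s = cR p q s := by
  simp only [cR, norm_sub_rev q p]
  ring

lemma cR_swap23 (p q s : E3) : cR p s q = cR p q s := by
  simp only [cR, norm_sub_rev s q]
  ring

lemma cR_rho (p q s : E3) : cR (rho p) (rho q) (rho s) = cR p q s := by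
  simp only [cR, norm_rho_sub]

lemma Rel.swap12 {p q s : E3} (h : Rel p q s) : Rel q p s := by
  unfold Rel at *
  rw [cR_swap12]
  constructor
  · linarith [h.1]
  · intro h2
    exact (h.2 (by linarith)).swap12

lemma Rel.swap23 {p q s : E3} (h : Rel p q s) : Rel p s q := by
  unfold Rel at *
  rw [cR_swap23]
  constructor
  · linarith [h.1]
  · intro h2
    exact (h.2 (by linarith)).swap23

lemma Rel.of_rho {p q s : E3} (h : Rel (rho p) (rho q) (rho s)) : Rel p q s := by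
  unfold Rel at *
  rw [uR_rho, uR_rho, uR_rho, cR_rho] at h
  exact ⟨h.1, fun h2 => (h.2 h2).of_rho⟩

lemma Rel.of_lt {p q s : E3} (h : uR p + uR q + uR s < cR p q s) : Rel p q s :=
  ⟨h.le, fun h2 => absurd h2 h.ne⟩

/-- The case of a genuine triple of clusters of the first sheet. -/
lemma rel_main {p q s : E3} (hp : p ∈ Ab) (hq : q ∈ C1) (hs : s ∈ C2) (h12 : p ≠ q) (h13 : p ≠ s)
    (h23 : q ≠ s) : Rel p q s := by
  obtain ⟨g, hg, rfl⟩ := hq
  have hineq := contact_ineq (x' := p) (z' := s) norm_e₁ (mem_Ab.mp hg) (sol_YZ hg) h12 h13 h23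
  have e1 : uR p + uR (Y g) + uR s = Wf p + Gf g + v2R s := by
    rw [uR_A hp, uR_C1 (Y_mem_C1 hg), uR_C2 hs, v1f_Y hg]
  have e2 : cR g (Y g) (Z g) - Wf g - v2f e₁ (Z g) = Gf g := rfl
  rw [e2] at hineq
  have e3 : v2f e₁ s = v2R s := rfl
  rw [e3] at hineq
  have n1 : 0 ≤ ‖p - g‖ ^ 2 := by positivity
  have n2 : 0 ≤ ‖s - Z g‖ ^ 2 := by positivity
  unfold Rel
  rw [e1]
  constructor
  · linarith
  · intro heq
    have h3 : ‖p - g‖ ^ 2 = 0 := by linarith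
    have h4 : ‖s - Z g‖ ^ 2 = 0 := by linarith
    have h5 : p = g := by
      have := pow_eq_zero_iff (two_ne_zero) |>.mp h3
      exact sub_eq_zero.mp (norm_eq_zero.mp this)
    have h6 : s = Z g := by
      have := pow_eq_zero_iff (two_ne_zero) |>.mp h4
      exact sub_eq_zero.mp (norm_eq_zero.mp this)
    exact ⟨g, hg, Or.inl (Or.inl ⟨h5, rfl, h6⟩)⟩

/-- A strict inequality when the two corner points are not near antipodal centres. -/
lemma rel_far {p q s a b : E3} (hp : p ∈ Ab) (hq : ‖q - a‖ ≤ 13 / 1000) (hs : ‖s - b‖ ≤ 13 / 1000)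
    (ha : ‖a‖ = 1) (hb : ‖b‖ = 1) (hab : ‖a - b‖ ≤ 3 / 2) (h23 : q ≠ s) (uq : uR q ≤ 3 / 10)
    (us : uR s ≤ 3 / 10) : Rel p q s := by
  apply Rel.of_lt
  have hp' := mem_Ab.mp hp
  have hup := (uR_A_bounds hp).2
  have n1 := norm_near (u := q) hq
  have n2 := norm_near (u := s) hs
  rw [ha] at n1
  rw [hb] at n2
  have d1 : ‖p - q‖ ≤ 102 / 100 := by
    calc _ ≤ ‖p‖ + ‖q‖ := norm_sub_le _ _
      _ ≤ _ := by linarith [n1.2]
  have d1' : 98 / 100 ≤ ‖p - q‖ := by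
    have := norm_sub_le q p
    have h5 : ‖q - p‖ = ‖p - q‖ := norm_sub_rev _ _
    have h6 := norm_sub_norm_le q p
    linarith [n1.1]
  have d2 : ‖p - s‖ ≤ 102 / 100 := by
    calc _ ≤ ‖p‖ + ‖s‖ := norm_sub_le _ _
      _ ≤ _ := by linarith [n2.2]
  have d2' : 98 / 100 ≤ ‖p - s‖ := by
    have h5 : ‖s - p‖ = ‖p - s‖ := norm_sub_rev _ _
    have h6 := norm_sub_norm_le s p
    linarith [n2.1]
  have d3 : ‖q - s‖ ≤ 153 / 100 := by
    have : q - s = (a - b) + ((q - a) - (s - b)) := by abel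
    rw [this]
    calc _ ≤ ‖a - b‖ + ‖(q - a) - (s - b)‖ := norm_add_le _ _
      _ ≤ ‖a - b‖ + (‖q - a‖ + ‖s - b‖) := by gcongr; exact norm_sub_le _ _
      _ ≤ _ := by linarith
  have d3' : 0 < ‖q - s‖ := norm_pos_iff.mpr (sub_ne_zero.mpr h23)
  have i1 := (inv_band (r := ‖p - q‖) (a := 98 / 100) (b := 102 / 100) (by norm_num) d1' d1).1
  have i2 := (inv_band (r := ‖p - s‖) (a := 98 / 100) (b := 102 / 100) (by norm_num) d2' d2).1
  have i3 : (153 / 100 : ℝ)⁻¹ ≤ ‖q - s‖⁻¹ := inv_anti₀ d3' d3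
  simp only [cR]
  norm_num at i1 i2 i3
  linarith

lemma Cor_near {p : E3} (h : p ∈ Cor) : ‖p‖ ≤ 1 + 13 / 1000 := by
  rcases h with ((h | h) | h) | h
  · have := norm_near (near_C1 h); rw [norm_e₁] at this; exact this.2
  · have := norm_near (near_C2' h); rw [norm_neg_e₁] at this; exact this.2
  · have := norm_near (near_C3 h); rw [norm_e₂] at this; exact this.2
  · have := norm_near (near_C4' h); rw [norm_neg_e₂] at this; exact this.2

/-- The case of three corner points. -/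
lemma rel_zero {p q s : E3} (hp : p ∈ Cor) (hq : q ∈ Cor) (hs : s ∈ Cor) (h12 : p ≠ q) (h13 : p ≠ s)
    (h23 : q ≠ s) : Rel p q s := by
  apply Rel.of_lt
  have u1 := (uR_Cor_bounds hp).2
  have u2 := (uR_Cor_bounds hq).2
  have u3 := (uR_Cor_bounds hs).2
  have n1 := Cor_near hp
  have n2 := Cor_near hq
  have n3 := Cor_near hs
  have d1 : ‖p - q‖ ≤ 203 / 100 := (norm_sub_le _ _).trans (by linarith)
  have d2 : ‖p - s‖ ≤ 203 / 100 := (norm_sub_le _ _).trans (by linarith)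
  have d3 : ‖q - s‖ ≤ 203 / 100 := (norm_sub_le _ _).trans (by linarith)
  have i1 : (203 / 100 : ℝ)⁻¹ ≤ ‖p - q‖⁻¹ := inv_anti₀ (norm_pos_iff.mpr (sub_ne_zero.mpr h12)) d1
  have i2 : (203 / 100 : ℝ)⁻¹ ≤ ‖p - s‖⁻¹ := inv_anti₀ (norm_pos_iff.mpr (sub_ne_zero.mpr h13)) d2
  have i3 : (203 / 100 : ℝ)⁻¹ ≤ ‖q - s‖⁻¹ := inv_anti₀ (norm_pos_iff.mpr (sub_ne_zero.mpr h23)) d3
  simp only [cR]
  norm_num at i1 i2 i3
  linarith

/-- The case of two central points. -/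
lemma rel_two {p q s : E3} (hp : p ∈ Ab) (hq : q ∈ Ab) (h12 : p ≠ q) : Rel p q s := by
  apply Rel.of_lt
  have u1 := (uR_A_bounds hp).2
  have u2 := (uR_A_bounds hq).2
  have u3 := uR_le_two s
  have n1 := mem_Ab.mp hp
  have n2 := mem_Ab.mp hq
  have d1 : ‖p - q‖ ≤ 1 / 200000 := (norm_sub_le _ _).trans (by linarith)
  have i1 : (1 / 200000 : ℝ)⁻¹ ≤ ‖p - q‖⁻¹ := inv_anti₀ (norm_pos_iff.mpr (sub_ne_zero.mpr h12)) d1
  have i2 : 0 ≤ ‖p - s‖⁻¹ := by positivity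
  have i3 : 0 ≤ ‖q - s‖⁻¹ := by positivity
  simp only [cR]
  norm_num at i1
  linarith

/-- The case of one central point and two corner points. -/
lemma rel_one {p q s : E3} (hp : p ∈ Ab) (hq : q ∈ Cor) (hs : s ∈ Cor) (h12 : p ≠ q) (h13 : p ≠ s)
    (h23 : q ≠ s) : Rel p q s := by
  have uq := (uR_Cor_bounds hq).2
  have us := (uR_Cor_bounds hs).2
  have rho_ne : ∀ {a b : E3}, a ≠ b → rho a ≠ rho b := fun h h' => h (rho.injective h')
  rcases hq with ((hq | hq) | hq) | hq <;> rcases hs with ((hs | hs) | hs) | hs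
  -- `q ∈ C1`
  · exact rel_far hp (near_C1 hq) (near_C1 hs) norm_e₁ norm_e₁ (by rw [sub_self, norm_zero]; norm_num) h23 uq us
  · exact rel_main hp hq hs h12 h13 h23
  · exact rel_far hp (near_C1 hq) (near_C3 hs) norm_e₁ norm_e₂ dist_12.2 h23 uq us
  · exact rel_far hp (near_C1 hq) (near_C4' hs) norm_e₁ norm_neg_e₂ dist_1m2.2 h23 uq us
  -- `q ∈ C2`
  · exact (rel_main hp hs hq h13 h12 h23.symm).swap23
  · exact rel_far hp (near_C2' hq) (near_C2' hs) norm_neg_e₁ norm_neg_e₁ (by rw [sub_self, norm_zero]; norm_num) h23 uq us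
  · exact rel_far hp (near_C2' hq) (near_C3 hs) norm_neg_e₁ norm_e₂ dist_m12.2 h23 uq us
  · exact rel_far hp (near_C2' hq) (near_C4' hs) norm_neg_e₁ norm_neg_e₂ dist_m1m2.2 h23 uq us
  -- `q ∈ C3`
  · refine rel_far hp (near_C3 hq) (near_C1 hs) norm_e₂ norm_e₁ ?_ h23 uq us
    rw [norm_sub_rev]; exact dist_12.2
  · refine rel_far hp (near_C3 hq) (near_C2' hs) norm_e₂ norm_neg_e₁ ?_ h23 uq us
    rw [norm_sub_rev]; exact dist_m12.2
  · exact rel_far hp (near_C3 hq) (near_C3 hs) norm_e₂ norm_e₂ (by rw [sub_self, norm_zero]; norm_num) h23 uq us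
  · exact Rel.of_rho (rel_main (rho_mem_Ab hp) (rho_mem_C1 hq) (rho_mem_C2 hs) (rho_ne h12)
      (rho_ne h13) (rho_ne h23))
  -- `q ∈ C4`
  · refine rel_far hp (near_C4' hq) (near_C1 hs) norm_neg_e₂ norm_e₁ ?_ h23 uq us
    rw [norm_sub_rev]; exact dist_1m2.2
  · refine rel_far hp (near_C4' hq) (near_C2' hs) norm_neg_e₂ norm_neg_e₁ ?_ h23 uq us
    rw [norm_sub_rev]; exact dist_m1m2.2
  · exact (Rel.of_rho (rel_main (rho_mem_Ab hp) (rho_mem_C1 hs) (rho_mem_C2 hq) (rho_ne h13)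
      (rho_ne h12) (rho_ne h23.symm))).swap23
  · exact rel_far hp (near_C4' hq) (near_C4' hs) norm_neg_e₂ norm_neg_e₂ (by rw [sub_self, norm_zero]; norm_num) h23 uq us

/-- The dual inequality for all pairwise distinct points of the support. -/
theorem rel_all {p q s : E3} (hp : p ∈ Sb) (hq : q ∈ Sb) (hs : s ∈ Sb) (h12 : p ≠ q) (h13 : p ≠ s)
    (h23 : q ≠ s) : Rel p q s := by
  rcases mem_Sb.mp hp with hp | hp <;> rcases mem_Sb.mp hq with hq | hq <;>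
    rcases mem_Sb.mp hs with hs | hs
  · exact rel_two hp hq h12
  · exact rel_two hp hq h12
  · exact (rel_two hp hs h13).swap23
  · exact rel_one hp hq hs h12 h13 h23
  · exact (rel_two hq hs h23).swap23.swap12
  · exact (rel_one hq hp hs h12.symm h23 h13).swap12
  · exact ((rel_one hs hp hq h13.symm h23.symm h12).swap12.swap23)
  · exact rel_zero hp hq hs h12 h13 h23

/-! ### The dual inequality in `ENNReal` -/

/-- The dual potential. -/
def uE (p : E3) : ℝ≥0∞ := ENNReal.ofReal (uR p)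

lemma coulomb_of_ne {p q s : E3} (h12 : p ≠ q) (h13 : p ≠ s) (h23 : q ≠ s) :
    coulomb p q s = ENNReal.ofReal (cR p q s) := by
  have key : ∀ {a b : E3}, a ≠ b → (‖a - b‖ₑ)⁻¹ = ENNReal.ofReal ‖a - b‖⁻¹ := by
    intro a b hab
    have hpos : 0 < ‖a - b‖ := norm_pos_iff.mpr (sub_ne_zero.mpr hab)
    rw [← ofReal_norm, ENNReal.ofReal_inv_of_pos hpos]
  rw [coulomb, key h12, key h13, key h23, cR, ENNReal.ofReal_add (by positivity) (by positivity),
    ENNReal.ofReal_add (by positivity) (by positivity)]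

lemma coulomb_eq_top_12 {p s : E3} : coulomb p p s = ⊤ := by
  simp [coulomb]

lemma coulomb_eq_top_13 {p q : E3} : coulomb p q p = ⊤ := by
  simp [coulomb]

lemma coulomb_eq_top_23 {p q : E3} : coulomb p q q = ⊤ := by
  simp [coulomb]

lemma uE_sum_ne_top (p q s : E3) : uE p + uE q + uE s ≠ ⊤ := by
  simp [uE]

lemma uE_sum (p q s : E3) : uE p + uE q + uE s = ENNReal.ofReal (uR p + uR q + uR s) := by
  rw [uE, uE, uE, ENNReal.ofReal_add (by linarith [uR_nonneg p, uR_nonneg q]) (uR_nonneg s),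
    ENNReal.ofReal_add (uR_nonneg p) (uR_nonneg q)]

/-- The dual inequality and its equality case. -/
theorem dual_ineq {p q s : E3} (hp : p ∈ Sb) (hq : q ∈ Sb) (hs : s ∈ Sb) :
    uE p + uE q + uE s ≤ coulomb p q s ∧ (uE p + uE q + uE s = coulomb p q s → Contact p q s) := by
  by_cases h12 : p = q
  · subst h12
    rw [coulomb_eq_top_12]
    exact ⟨le_top, fun h => absurd h (uE_sum_ne_top _ _ _)⟩
  by_cases h13 : p = s
  · subst h13
    rw [coulomb_eq_top_13]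
    exact ⟨le_top, fun h => absurd h (uE_sum_ne_top _ _ _)⟩
  by_cases h23 : q = s
  · subst h23
    rw [coulomb_eq_top_23]
    exact ⟨le_top, fun h => absurd h (uE_sum_ne_top _ _ _)⟩
  have hR := rel_all hp hq hs h12 h13 h23
  rw [coulomb_of_ne h12 h13 h23, uE_sum]
  have hsum : 0 ≤ uR p + uR q + uR s := by
    linarith [uR_nonneg p, uR_nonneg q, uR_nonneg s]
  constructor
  · exact ENNReal.ofReal_le_ofReal hR.1
  · intro h
    have hc : 0 ≤ cR p q s := by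
      simp only [cR]; positivity
    rw [ENNReal.ofReal_eq_ofReal_iff hsum hc] at h
    exact hR.2 h

/-! ### Decoding contact triples -/

lemma contact_C1_second {p q s : E3} (h : Contact p q s) (hq : q ∈ C1) :
    ∃ g ∈ Ab, q = Y g ∧ ((p = g ∧ s = Z g) ∨ (p = Z g ∧ s = g)) := by
  obtain ⟨g, hg, h | h⟩ := h
  · rcases h with ⟨h1, h2, h3⟩ | ⟨h1, h2, h3⟩ | ⟨h1, h2, h3⟩ | ⟨h1, h2, h3⟩ | ⟨h1, h2, h3⟩ |
      ⟨h1, h2, h3⟩
    · exact ⟨g, hg, h2, Or.inl ⟨h1, h3⟩⟩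
    · exact absurd (h2 ▸ Z_mem_C2 hg) (fun h' => C1_not_C2 hq h')
    · exact absurd (h2 ▸ hg) (fun h' => Ab_not_C1 h' hq)
    · exact absurd (h2 ▸ Z_mem_C2 hg) (fun h' => C1_not_C2 hq h')
    · exact absurd (h2 ▸ hg) (fun h' => Ab_not_C1 h' hq)
    · exact ⟨g, hg, h2, Or.inr ⟨h1, h3⟩⟩
  · rcases h with ⟨h1, h2, h3⟩ | ⟨h1, h2, h3⟩ | ⟨h1, h2, h3⟩ | ⟨h1, h2, h3⟩ | ⟨h1, h2, h3⟩ |
      ⟨h1, h2, h3⟩
    · exact absurd (h2 ▸ Y'_mem_C3 hg) (fun h' => C1_not_C3 hq h')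
    · exact absurd (h2 ▸ Z'_mem_C4 hg) (fun h' => C1_not_C4 hq h')
    · exact absurd (h2 ▸ hg) (fun h' => Ab_not_C1 h' hq)
    · exact absurd (h2 ▸ Z'_mem_C4 hg) (fun h' => C1_not_C4 hq h')
    · exact absurd (h2 ▸ hg) (fun h' => Ab_not_C1 h' hq)
    · exact absurd (h2 ▸ Y'_mem_C3 hg) (fun h' => C1_not_C3 hq h')

lemma contact_C1_third {p q s : E3} (h : Contact p q s) (hs : s ∈ C1) :
    ∃ g ∈ Ab, s = Y g ∧ ((p = g ∧ q = Z g) ∨ (p = Z g ∧ q = g)) :=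
  contact_C1_second h.swap23 hs

lemma contact_C2_first {p q s : E3} (h : Contact p q s) (hp : p ∈ C2) :
    ∃ g ∈ Ab, p = Z g ∧ ((q = Y g ∧ s = g) ∨ (q = g ∧ s = Y g)) := by
  obtain ⟨g, hg, h | h⟩ := h
  · rcases h with ⟨h1, h2, h3⟩ | ⟨h1, h2, h3⟩ | ⟨h1, h2, h3⟩ | ⟨h1, h2, h3⟩ | ⟨h1, h2, h3⟩ |
      ⟨h1, h2, h3⟩
    · exact absurd (h1 ▸ hg) (fun h' => Ab_not_C2 h' hp)
    · exact absurd (h1 ▸ hg) (fun h' => Ab_not_C2 h' hp)
    · exact absurd (h1 ▸ Y_mem_C1 hg) (fun h' => C1_not_C2 h' hp)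
    · exact absurd (h1 ▸ Y_mem_C1 hg) (fun h' => C1_not_C2 h' hp)
    · exact ⟨g, hg, h1, Or.inr ⟨h2, h3⟩⟩
    · exact ⟨g, hg, h1, Or.inl ⟨h2, h3⟩⟩
  · rcases h with ⟨h1, h2, h3⟩ | ⟨h1, h2, h3⟩ | ⟨h1, h2, h3⟩ | ⟨h1, h2, h3⟩ | ⟨h1, h2, h3⟩ |
      ⟨h1, h2, h3⟩
    · exact absurd (h1 ▸ hg) (fun h' => Ab_not_C2 h' hp)
    · exact absurd (h1 ▸ hg) (fun h' => Ab_not_C2 h' hp)
    · exact absurd (h1 ▸ Y'_mem_C3 hg) (fun h' => C2_not_C3 hp h')
    · exact absurd (h1 ▸ Y'_mem_C3 hg) (fun h' => C2_not_C3 hp h')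
    · exact absurd (h1 ▸ Z'_mem_C4 hg) (fun h' => C2_not_C4 hp h')
    · exact absurd (h1 ▸ Z'_mem_C4 hg) (fun h' => C2_not_C4 hp h')

lemma contact_A_not_both {p q s : E3} (h : Contact p q s) (hp : p ∈ Ab) (hq : q ∈ C1) (hs : s ∈ C1) :
    False := by
  obtain ⟨g, hg, -, h1 | h1⟩ := contact_C1_second h hq
  · exact C1_not_C2 hs (h1.2 ▸ Z_mem_C2 hg)
  · exact Ab_not_C2 hp (h1.1 ▸ Z_mem_C2 hg)

/-- The contact triples of the two sheets are genuine equality cases. -/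
lemma contact_sheet1 {g : E3} (hg : g ∈ Ab) :
    uE g + uE (Y g) + uE (Z g) = coulomb g (Y g) (Z g) := by
  have h12 : g ≠ Y g := fun h => Ab_not_C1 hg (h ▸ Y_mem_C1 hg)
  have h13 : g ≠ Z g := fun h => Ab_not_C2 hg (h ▸ Z_mem_C2 hg)
  have h23 : Y g ≠ Z g := fun h => C1_not_C2 (Y_mem_C1 hg) (h ▸ Z_mem_C2 hg)
  rw [coulomb_of_ne h12 h13 h23, uE_sum, uR_A hg, uR_C1 (Y_mem_C1 hg), uR_C2 (Z_mem_C2 hg),
    v1f_Y hg, Gf]
  congr 1
  ring

lemma contact_sheet2 {g : E3} (hg : g ∈ Ab) :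
    uE g + uE (Y' g) + uE (Z' g) = coulomb g (Y' g) (Z' g) := by
  have h := contact_sheet1 (rho_mem_Ab hg)
  have e1 : coulomb g (Y' g) (Z' g) = coulomb (rho g) (Y (rho g)) (Z (rho g)) := by
    simp only [coulomb, Y', Z']
    have key : ∀ a b : E3, ‖rho a - rho b‖ₑ = ‖a - b‖ₑ := by
      intro a b
      rw [← ofReal_norm, ← ofReal_norm, norm_rho_sub]
    have key2 : ∀ b : E3, ‖g - rho b‖ₑ = ‖rho g - b‖ₑ := by
      intro b
      have := key (rho g) b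
      rwa [rho_rho] at this
    rw [key2, key2, key]
  have e2 : ∀ a : E3, uE (rho a) = uE a := fun a => by simp only [uE, uR_rho]
  rw [e1, ← h, e2 g]
  simp only [Y', Z', e2]

end

end Vale.Agent.P121
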