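import Vale.Agent.P121.Value

/-!
# No optimal Monge plan: forced splitting of the mass of the central ball
-/

open scoped RealInnerProductSpace NNReal ENNReal
open Metric MeasureTheory

namespace Vale.Agent.P121

set_option linter.unusedSectionVars false
set_option linter.unusedVariables false

noncomputable section

section balance

variable {T₂ T₃ : E3 → E3}

/-- The pointwise balance identity. -/
lemma balance_pointwise {G : Set E3} (hGA : G ⊆ Ab) {w : E3} (hw : Contact w (T₂ w) (T₃ w)) :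
    (T₂ ⁻¹' (Y '' G)).indicator (1 : E3 → ℝ≥0∞) w + (T₃ ⁻¹' (Y '' G)).indicator (1 : E3 → ℝ≥0∞) w =
      (G ∩ (T₂ ⁻¹' C1 ∪ T₃ ⁻¹' C1)).indicator (1 : E3 → ℝ≥0∞) w +
        (Z '' G).indicator (1 : E3 → ℝ≥0∞) w := by
  have hPC : ∀ p ∈ Y '' G, p ∈ C1 := by
    rintro _ ⟨g, hg, rfl⟩
    exact Y_mem_C1 (hGA hg)
  by_cases hQ : w ∈ Z '' G
  · -- `w` is in the image of `G` under `Z`
    obtain ⟨h, hh, rfl⟩ := id hQ
    have hnG : Z h ∉ G := fun h' => Ab_not_C2 (hGA h') (Z_mem_C2 (hGA hh))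
    have hnGB : Z h ∉ G ∩ (T₂ ⁻¹' C1 ∪ T₃ ⁻¹' C1) := fun h' => hnG h'.1
    obtain ⟨g, hg, hgz, hcase⟩ := contact_C2_first hw (Z_mem_C2 (hGA hh))
    have hgh : g = h := injOn_Z hg (hGA hh) hgz.symm
    subst hgh
    rcases hcase with ⟨h2, h3⟩ | ⟨h2, h3⟩
    · have a1 : Z g ∈ T₂ ⁻¹' (Y '' G) := ⟨g, hh, h2.symm⟩
      have a2 : Z g ∉ T₃ ⁻¹' (Y '' G) := fun h' =>
        Ab_not_C1 (hg) (hPC _ (by simpa [h3] using h'))
      simp [a1, a2, hnGB, hQ]
    · have a1 : Z g ∈ T₃ ⁻¹' (Y '' G) := ⟨g, hh, h3.symm⟩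
      have a2 : Z g ∉ T₂ ⁻¹' (Y '' G) := fun h' =>
        Ab_not_C1 (hg) (hPC _ (by simpa [h2] using h'))
      simp [a1, a2, hnGB, hQ]
  · by_cases hG : w ∈ G
    · have hwA := hGA hG
      by_cases h2 : T₂ w ∈ C1
      · obtain ⟨g, hg, hgy, hcase⟩ := contact_C1_second hw h2
        rcases hcase with ⟨h3, h4⟩ | ⟨h3, h4⟩
        · subst h3
          have a1 : w ∈ T₂ ⁻¹' (Y '' G) := ⟨w, hG, hgy.symm⟩
          have a2 : w ∉ T₃ ⁻¹' (Y '' G) := fun h' =>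
            C1_not_C2 (hPC _ h') (h4 ▸ Z_mem_C2 hg)
          have a3 : w ∈ G ∩ (T₂ ⁻¹' C1 ∪ T₃ ⁻¹' C1) := ⟨hG, Or.inl h2⟩
          simp [a1, a2, a3, hQ]
        · exact absurd (h3 ▸ Z_mem_C2 hg) (fun h' => Ab_not_C2 hwA h')
      · by_cases h3 : T₃ w ∈ C1
        · obtain ⟨g, hg, hgy, hcase⟩ := contact_C1_third hw h3
          rcases hcase with ⟨h4, h5⟩ | ⟨h4, h5⟩
          · subst h4
            have a1 : w ∈ T₃ ⁻¹' (Y '' G) := ⟨w, hG, hgy.symm⟩
            have a2 : w ∉ T₂ ⁻¹' (Y '' G) := fun h' => h2 (hPC _ h')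
            have a3 : w ∈ G ∩ (T₂ ⁻¹' C1 ∪ T₃ ⁻¹' C1) := ⟨hG, Or.inr h3⟩
            simp [a1, a2, a3, hQ]
          · exact absurd (h4 ▸ Z_mem_C2 hg) (fun h' => Ab_not_C2 hwA h')
        · have a1 : w ∉ T₂ ⁻¹' (Y '' G) := fun h' => h2 (hPC _ h')
          have a2 : w ∉ T₃ ⁻¹' (Y '' G) := fun h' => h3 (hPC _ h')
          have a3 : w ∉ G ∩ (T₂ ⁻¹' C1 ∪ T₃ ⁻¹' C1) := fun h' => by
            rcases h'.2 with h' | h'
            · exact h2 h'
            · exact h3 h'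
          simp [a1, a2, a3, hQ]
    · have a3 : w ∉ G ∩ (T₂ ⁻¹' C1 ∪ T₃ ⁻¹' C1) := fun h' => hG h'.1
      have a1 : w ∉ T₂ ⁻¹' (Y '' G) := by
        rintro ⟨h, hh, hhy⟩
        obtain ⟨g, hg, hgy, hcase⟩ := contact_C1_second hw (hhy ▸ Y_mem_C1 (hGA hh))
        have hgh : h = g := injOn_Y (hGA hh) hg (hhy.trans hgy)
        subst hgh
        rcases hcase with ⟨h3, -⟩ | ⟨h3, -⟩
        · exact hG (h3 ▸ hh)
        · exact hQ ⟨h, hh, h3.symm⟩
      have a2 : w ∉ T₃ ⁻¹' (Y '' G) := by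
        rintro ⟨h, hh, hhy⟩
        obtain ⟨g, hg, hgy, hcase⟩ := contact_C1_third hw (hhy ▸ Y_mem_C1 (hGA hh))
        have hgh : h = g := injOn_Y (hGA hh) hg (hhy.trans hgy)
        subst hgh
        rcases hcase with ⟨h3, -⟩ | ⟨h3, -⟩
        · exact hG (h3 ▸ hh)
        · exact hQ ⟨h, hh, h3.symm⟩
      simp [a1, a2, a3, hQ]

/-- The mass balance for a subset of the central ball. -/
lemma balance {G : Set E3} (hGm : MeasurableSet G) (hGA : G ⊆ Ab) (h : IsOptimalMonge mu T₂ T₃) :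
    mu (G ∩ (T₂ ⁻¹' C1 ∪ T₃ ⁻¹' C1)) = 6⁻¹ * muA G := by
  obtain ⟨hm2, hm3, hp2, hp3, -⟩ := id h
  have hP : MeasurableSet (Y '' G) :=
    hGm.image_of_continuousOn_injOn (continuousOn_Y.mono hGA) (injOn_Y.mono hGA)
  have hQ : MeasurableSet (Z '' G) :=
    hGm.image_of_continuousOn_injOn (continuousOn_Z.mono hGA) (injOn_Z.mono hGA)
  have hC1 : MeasurableSet C1 := isCompact_C1.measurableSet
  have hB : MeasurableSet (G ∩ (T₂ ⁻¹' C1 ∪ T₃ ⁻¹' C1)) :=
    hGm.inter ((hm2 hC1).union (hm3 hC1))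
  have e2 : mu (T₂ ⁻¹' (Y '' G)) = mu (Y '' G) := by
    conv_rhs => rw [← hp2]
    rw [Measure.map_apply hm2 hP]
  have e3 : mu (T₃ ⁻¹' (Y '' G)) = mu (Y '' G) := by
    conv_rhs => rw [← hp3]
    rw [Measure.map_apply hm3 hP]
  have hint : ∫⁻ w, ((T₂ ⁻¹' (Y '' G)).indicator (1 : E3 → ℝ≥0∞) w +
        (T₃ ⁻¹' (Y '' G)).indicator (1 : E3 → ℝ≥0∞) w) ∂mu =
      ∫⁻ w, ((G ∩ (T₂ ⁻¹' C1 ∪ T₃ ⁻¹' C1)).indicator (1 : E3 → ℝ≥0∞) w +
        (Z '' G).indicator (1 : E3 → ℝ≥0∞) w) ∂mu := by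
    apply lintegral_congr_ae
    filter_upwards [monge_contact h] with w hw
    exact balance_pointwise hGA hw
  rw [lintegral_add_left (measurable_one.indicator (hm2 hP)),
    lintegral_add_left (measurable_one.indicator hB), lintegral_indicator_one (hm2 hP),
    lintegral_indicator_one (hm3 hP), lintegral_indicator_one hB, lintegral_indicator_one hQ,
    e2, e3, mu_Y_image hGA hP hGm, mu_Z_image hGA hQ hGm] at hint
  have hfin : (6 : ℝ≥0∞)⁻¹ * muA G ≠ ⊤ :=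
    ENNReal.mul_ne_top (by simp) (measure_ne_top _ _)
  exact ((ENNReal.add_left_inj hfin).mp hint).symm

/-- There is no optimal Monge plan for `mu`. -/
theorem no_optimal_monge (h : IsOptimalMonge mu T₂ T₃) : False := by
  obtain ⟨hm2, hm3, -, -, -⟩ := id h
  have hC1 : MeasurableSet C1 := isCompact_C1.measurableSet
  set B : Set E3 := T₂ ⁻¹' C1 ∪ T₃ ⁻¹' C1 with hB
  have hBm : MeasurableSet B := (hm2 hC1).union (hm3 hC1)
  -- the part of the central ball sent to the first sheet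
  have hG1m : MeasurableSet (Ab ∩ B) := measurableSet_Ab.inter hBm
  have hG1A : Ab ∩ B ⊆ Ab := Set.inter_subset_left
  have h1 := balance hG1m hG1A h
  have e1 : Ab ∩ B ∩ (T₂ ⁻¹' C1 ∪ T₃ ⁻¹' C1) = Ab ∩ B := by
    rw [Set.inter_assoc, Set.inter_self]
  rw [e1, mu_sub_Ab hG1m hG1A] at h1
  have hx1 : muA (Ab ∩ B) = 0 := by
    set x := muA (Ab ∩ B) with hx
    have hxfin : x ≠ ⊤ := measure_ne_top _ _
    have h3 : (3 : ℝ≥0∞)⁻¹ = 2 * 6⁻¹ := by
      rw [show (6 : ℝ≥0∞) = 2 * 3 by norm_num, ENNReal.mul_inv (by norm_num) (by norm_num),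
        ← mul_assoc, ENNReal.mul_inv_cancel (by norm_num) (by norm_num), one_mul]
    rw [h3, mul_assoc, two_mul] at h1
    set a := (6 : ℝ≥0∞)⁻¹ * x with ha
    have hafin : a ≠ ⊤ := ENNReal.mul_ne_top (by simp) hxfin
    have h4 : a = 0 := by
      have : a + a = 0 + a := by rw [zero_add]; exact h1
      exact (ENNReal.add_left_inj hafin).mp this
    rw [ha, mul_eq_zero] at h4
    rcases h4 with h4 | h4
    · simp at h4
    · exact h4
  -- the part of the central ball sent to the second sheet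
  have hG2m : MeasurableSet (Ab \ B) := measurableSet_Ab.diff hBm
  have hG2A : Ab \ B ⊆ Ab := Set.sdiff_subset
  have h2 := balance hG2m hG2A h
  have e2 : Ab \ B ∩ (T₂ ⁻¹' C1 ∪ T₃ ⁻¹' C1) = ∅ := by
    rw [← hB]
    exact Set.sdiff_inter_self
  rw [e2, measure_empty] at h2
  have hx2 : muA (Ab \ B) = 0 := by
    have h4 := h2.symm
    rw [mul_eq_zero] at h4
    rcases h4 with h4 | h4
    · simp at h4
    · exact h4
  -- contradiction
  have htot : muA Ab = 1 := by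
    have := muA_inter Set.univ
    rwa [Set.univ_inter, measure_univ] at this
  have : muA Ab ≤ muA (Ab ∩ B) + muA (Ab \ B) := (measure_inter_add_sdiff Ab hBm).symm.le
  rw [hx1, hx2, htot] at this
  simp at this

end balance

end

end Vale.Agent.P121
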