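import Vale.Agent.P121.Contact
import Vale.Agent.P121.Defs

/-!
# The contact maps on the first sheet, the reflection, and the clusters
-/

open scoped RealInnerProductSpace NNReal
open Metric MeasureTheory

namespace Vale.Agent.P121

set_option linter.unusedSectionVars false
set_option linter.unusedVariables false

noncomputable section

/-- The first basis vector. -/
def e₁ : E3 := EuclideanSpace.single 0 1

/-- The reflection exchanging the first two coordinates. -/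
def rho : E3 ≃ₗᵢ[ℝ] E3 := LinearIsometryEquiv.piLpCongrLeft 2 ℝ ℝ (Equiv.swap (0 : Fin 3) 1)

/-- The second basis vector. -/
def e₂ : E3 := rho e₁

lemma norm_e₁ : ‖e₁‖ = 1 := by simp [e₁]

lemma norm_e₂ : ‖e₂‖ = 1 := by simp [e₂, norm_e₁]

lemma rho_rho (x : E3) : rho (rho x) = x := by
  ext i
  simp [rho, LinearIsometryEquiv.piLpCongrLeft]

lemma e₂_eq : e₂ = EuclideanSpace.single 1 1 := by
  rw [e₂, e₁, rho, EuclideanSpace.piLpCongrLeft_single, Equiv.swap_apply_left]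

lemma inner_e₁_e₂ : ⟪e₁, e₂⟫ = 0 := by
  rw [e₂_eq, e₁, EuclideanSpace.inner_single_left]
  simp

lemma rho_e₂ : rho e₂ = e₁ := rho_rho e₁

lemma norm_rho_sub (a b : E3) : ‖rho a - rho b‖ = ‖a - b‖ := by
  rw [← map_sub, LinearIsometryEquiv.norm_map]

lemma norm_rho (a : E3) : ‖rho a‖ = ‖a‖ := LinearIsometryEquiv.norm_map _ _

/-! ### The central ball -/

/-- The central ball. -/
def Ab : Set E3 := closedBall 0 (1 / 400000)

lemma mem_Ab {x : E3} : x ∈ Ab ↔ ‖x‖ ≤ 1 / 400000 := by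
  simp [Ab]

lemma rho_mem_Ab {x : E3} (h : x ∈ Ab) : rho x ∈ Ab := by
  rw [mem_Ab, norm_rho]; exact mem_Ab.mp h

lemma measurableSet_Ab : MeasurableSet Ab := isClosed_closedBall.measurableSet

lemma isCompact_Ab : IsCompact Ab := isCompact_closedBall _ _

/-! ### The contact maps -/

/-- The map `x ↦ y`. -/
def Y (x : E3) : E3 :=
  if h : ‖x‖ ≤ 1 / 400000 then (exists_sol norm_e₁ h).choose else e₁

/-- The map `x ↦ z`. -/
def Z (x : E3) : E3 :=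
  if h : ‖x‖ ≤ 1 / 400000 then (exists_sol norm_e₁ h).choose_spec.choose else -e₁

lemma sol_YZ {x : E3} (h : x ∈ Ab) : IsSol e₁ x (Y x) (Z x) := by
  have h' := mem_Ab.mp h
  simp only [Y, Z, dif_pos h']
  exact (exists_sol norm_e₁ h').choose_spec.choose_spec

lemma Y_lower {x x' : E3} (h : x ∈ Ab) (h' : x' ∈ Ab) : 90 * ‖x - x'‖ ≤ ‖Y x - Y x'‖ :=
  (sol_est norm_e₁ (mem_Ab.mp h) (mem_Ab.mp h') (sol_YZ h) (sol_YZ h')).1

lemma Z_lower {x x' : E3} (h : x ∈ Ab) (h' : x' ∈ Ab) : ‖x - x'‖ ≤ 6 * ‖Z x - Z x'‖ :=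
  (sol_est norm_e₁ (mem_Ab.mp h) (mem_Ab.mp h') (sol_YZ h) (sol_YZ h')).2.1

lemma Y_upper {x x' : E3} (h : x ∈ Ab) (h' : x' ∈ Ab) : ‖Y x - Y x'‖ ≤ 1100 * ‖x - x'‖ :=
  (sol_est norm_e₁ (mem_Ab.mp h) (mem_Ab.mp h') (sol_YZ h) (sol_YZ h')).2.2.1

lemma Z_upper {x x' : E3} (h : x ∈ Ab) (h' : x' ∈ Ab) : ‖Z x - Z x'‖ ≤ 36 * ‖x - x'‖ :=
  (sol_est norm_e₁ (mem_Ab.mp h) (mem_Ab.mp h') (sol_YZ h) (sol_YZ h')).2.2.2

lemma continuousOn_of_lip {f : E3 → E3} {s : Set E3} {C : ℝ≥0}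
    (h : ∀ x ∈ s, ∀ x' ∈ s, ‖f x - f x'‖ ≤ C * ‖x - x'‖) : ContinuousOn f s := by
  have : LipschitzOnWith C f s := LipschitzOnWith.of_dist_le_mul (by
    intro x hx x' hx'
    rw [dist_eq_norm, dist_eq_norm]
    exact h x hx x' hx')
  exact this.continuousOn

lemma continuousOn_Y : ContinuousOn Y Ab :=
  continuousOn_of_lip (C := 1100) (fun x hx x' hx' => by simpa using Y_upper hx hx')

lemma continuousOn_Z : ContinuousOn Z Ab :=
  continuousOn_of_lip (C := 36) (fun x hx x' hx' => by simpa using Z_upper hx hx')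

lemma injOn_Y : Set.InjOn Y Ab := by
  intro x hx x' hx' h
  have := Y_lower hx hx'
  rw [h, sub_self, norm_zero] at this
  have h2 : ‖x - x'‖ = 0 := by
    have := norm_nonneg (x - x')
    linarith
  exact sub_eq_zero.mp (norm_eq_zero.mp h2)

lemma injOn_Z : Set.InjOn Z Ab := by
  intro x hx x' hx' h
  have := Z_lower hx hx'
  rw [h, sub_self, norm_zero] at this
  have h2 : ‖x - x'‖ = 0 := by
    have := norm_nonneg (x - x')
    linarith
  exact sub_eq_zero.mp (norm_eq_zero.mp h2)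

open Classical in
lemma measurable_Y : Measurable Y := by
  have : Y = Ab.piecewise Y (fun _ => e₁) := by
    funext x
    by_cases hx : x ∈ Ab
    · simp [Set.piecewise, hx]
    · have h' : ¬ ‖x‖ ≤ 1 / 400000 := fun h => hx (mem_Ab.mpr h)
      simp only [Set.piecewise, if_neg hx, Y, dif_neg h']
  rw [this]
  exact continuousOn_Y.measurable_piecewise continuousOn_const measurableSet_Ab

open Classical in
lemma measurable_Z : Measurable Z := by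
  have : Z = Ab.piecewise Z (fun _ => -e₁) := by
    funext x
    by_cases hx : x ∈ Ab
    · simp [Set.piecewise, hx]
    · have h' : ¬ ‖x‖ ≤ 1 / 400000 := fun h => hx (mem_Ab.mpr h)
      simp only [Set.piecewise, if_neg hx, Z, dif_neg h']
  rw [this]
  exact continuousOn_Z.measurable_piecewise continuousOn_const measurableSet_Ab

/-- The reflected contact maps. -/
def Y' (x : E3) : E3 := rho (Y (rho x))

/-- The reflected contact maps. -/
def Z' (x : E3) : E3 := rho (Z (rho x))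

lemma measurable_rho : Measurable rho := rho.continuous.measurable

lemma measurable_Y' : Measurable Y' := measurable_rho.comp (measurable_Y.comp measurable_rho)

lemma measurable_Z' : Measurable Z' := measurable_rho.comp (measurable_Z.comp measurable_rho)

lemma rho_Y' (x : E3) : rho (Y' x) = Y (rho x) := rho_rho _

lemma rho_Z' (x : E3) : rho (Z' x) = Z (rho x) := rho_rho _

lemma Y'_rho (x : E3) : Y' (rho x) = rho (Y x) := by
  rw [Y', rho_rho]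

lemma Z'_rho (x : E3) : Z' (rho x) = rho (Z x) := by
  rw [Z', rho_rho]

/-! ### The clusters -/

/-- The cluster near `e₁`. -/
def C1 : Set E3 := Y '' Ab

/-- The cluster near `-e₁`. -/
def C2 : Set E3 := Z '' Ab

/-- The cluster near `e₂`. -/
def C3 : Set E3 := rho '' C1

/-- The cluster near `-e₂`. -/
def C4 : Set E3 := rho '' C2

lemma isCompact_C1 : IsCompact C1 := isCompact_Ab.image_of_continuousOn continuousOn_Y

lemma isCompact_C2 : IsCompact C2 := isCompact_Ab.image_of_continuousOn continuousOn_Z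

lemma isCompact_C3 : IsCompact C3 := isCompact_C1.image rho.continuous

lemma isCompact_C4 : IsCompact C4 := isCompact_C2.image rho.continuous

lemma Y_mem_C1 {x : E3} (h : x ∈ Ab) : Y x ∈ C1 := ⟨x, h, rfl⟩

lemma Z_mem_C2 {x : E3} (h : x ∈ Ab) : Z x ∈ C2 := ⟨x, h, rfl⟩

lemma Y'_mem_C3 {x : E3} (h : x ∈ Ab) : Y' x ∈ C3 := ⟨_, Y_mem_C1 (rho_mem_Ab h), rfl⟩

lemma Z'_mem_C4 {x : E3} (h : x ∈ Ab) : Z' x ∈ C4 := ⟨_, Z_mem_C2 (rho_mem_Ab h), rfl⟩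

lemma rho_mem_C3 {p : E3} (h : p ∈ C1) : rho p ∈ C3 := ⟨p, h, rfl⟩

lemma rho_mem_C4 {p : E3} (h : p ∈ C2) : rho p ∈ C4 := ⟨p, h, rfl⟩

lemma rho_mem_C1 {p : E3} (h : p ∈ C3) : rho p ∈ C1 := by
  obtain ⟨q, hq, rfl⟩ := h
  rwa [rho_rho]

lemma rho_mem_C2 {p : E3} (h : p ∈ C4) : rho p ∈ C2 := by
  obtain ⟨q, hq, rfl⟩ := h
  rwa [rho_rho]

lemma near_C1 {p : E3} (h : p ∈ C1) : ‖p - e₁‖ ≤ 13 / 1000 := by
  obtain ⟨x, hx, rfl⟩ := h
  exact (sol_YZ hx).hy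

lemma near_C2 {p : E3} (h : p ∈ C2) : ‖p - (-e₁)‖ ≤ 1 / 1000 := by
  obtain ⟨x, hx, rfl⟩ := h
  rw [sub_neg_eq_add]
  exact (sol_YZ hx).hz

lemma near_C3 {p : E3} (h : p ∈ C3) : ‖p - e₂‖ ≤ 13 / 1000 := by
  obtain ⟨q, hq, rfl⟩ := h
  rw [e₂, norm_rho_sub]
  exact near_C1 hq

lemma near_C4 {p : E3} (h : p ∈ C4) : ‖p - (-e₂)‖ ≤ 1 / 1000 := by
  obtain ⟨q, hq, rfl⟩ := h
  rw [e₂, ← map_neg, norm_rho_sub]
  exact near_C2 hq

/-! ### Distances between the centres -/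

lemma band_of_sq {r : ℝ} (hr : 0 ≤ r) (h : r ^ 2 = 2) : 1 ≤ r ∧ r ≤ 3 / 2 := by
  constructor <;> nlinarith

lemma dist_12 : 1 ≤ ‖e₁ - e₂‖ ∧ ‖e₁ - e₂‖ ≤ 3 / 2 := by
  apply band_of_sq (norm_nonneg _)
  rw [norm_sub_sq_real, norm_e₁, norm_e₂, inner_e₁_e₂]; norm_num

lemma dist_1m2 : 1 ≤ ‖e₁ - (-e₂)‖ ∧ ‖e₁ - (-e₂)‖ ≤ 3 / 2 := by
  apply band_of_sq (norm_nonneg _)
  rw [norm_sub_sq_real, norm_e₁, norm_neg, norm_e₂, inner_neg_right, inner_e₁_e₂]; norm_num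

lemma dist_m12 : 1 ≤ ‖(-e₁) - e₂‖ ∧ ‖(-e₁) - e₂‖ ≤ 3 / 2 := by
  apply band_of_sq (norm_nonneg _)
  rw [norm_sub_sq_real, norm_neg, norm_e₁, norm_e₂, inner_neg_left, inner_e₁_e₂]; norm_num

lemma dist_m1m2 : 1 ≤ ‖(-e₁) - (-e₂)‖ ∧ ‖(-e₁) - (-e₂)‖ ≤ 3 / 2 := by
  apply band_of_sq (norm_nonneg _)
  rw [norm_sub_sq_real, norm_neg, norm_e₁, norm_neg, norm_e₂, inner_neg_left, inner_neg_right,
    inner_e₁_e₂]
  norm_num

lemma dist_1m1 : ‖e₁ - (-e₁)‖ = 2 := by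
  rw [sub_neg_eq_add, ← two_smul ℝ, norm_smul, norm_e₁]; norm_num

lemma dist_2m2 : ‖e₂ - (-e₂)‖ = 2 := by
  rw [sub_neg_eq_add, ← two_smul ℝ, norm_smul, norm_e₂]; norm_num

/-- Two clusters with separated centres do not meet. -/
lemma sep_of_near {p a b : E3} (ha : ‖p - a‖ ≤ 13 / 1000) (hb : ‖p - b‖ ≤ 13 / 1000)
    (hab : 1 ≤ ‖a - b‖) : False := by
  have h : ‖a - b‖ ≤ ‖p - a‖ + ‖p - b‖ := by
    have : a - b = (p - b) - (p - a) := by abel
    rw [this, add_comm]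
    exact norm_sub_le _ _
  linarith

/-- The central ball does not meet a cluster near a unit vector. -/
lemma sep_center {p a : E3} (hp : ‖p‖ ≤ 1 / 400000) (ha : ‖p - a‖ ≤ 13 / 1000) (hu : ‖a‖ = 1) :
    False := by
  have h : ‖a‖ ≤ ‖p‖ + ‖p - a‖ := by
    have := norm_sub_le p (p - a)
    simpa using this
  rw [hu] at h
  linarith

lemma near_C2' {p : E3} (h : p ∈ C2) : ‖p - (-e₁)‖ ≤ 13 / 1000 :=
  (near_C2 h).trans (by norm_num)

lemma near_C4' {p : E3} (h : p ∈ C4) : ‖p - (-e₂)‖ ≤ 13 / 1000 :=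
  (near_C4 h).trans (by norm_num)

lemma norm_neg_e₁ : ‖-e₁‖ = 1 := by rw [norm_neg, norm_e₁]
lemma norm_neg_e₂ : ‖-e₂‖ = 1 := by rw [norm_neg, norm_e₂]

lemma Ab_not_C1 {p : E3} (h : p ∈ Ab) (h' : p ∈ C1) : False :=
  sep_center (mem_Ab.mp h) (near_C1 h') norm_e₁

lemma Ab_not_C2 {p : E3} (h : p ∈ Ab) (h' : p ∈ C2) : False :=
  sep_center (mem_Ab.mp h) (near_C2' h') norm_neg_e₁

lemma Ab_not_C3 {p : E3} (h : p ∈ Ab) (h' : p ∈ C3) : False :=
  sep_center (mem_Ab.mp h) (near_C3 h') norm_e₂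

lemma Ab_not_C4 {p : E3} (h : p ∈ Ab) (h' : p ∈ C4) : False :=
  sep_center (mem_Ab.mp h) (near_C4' h') norm_neg_e₂

lemma C1_not_C2 {p : E3} (h : p ∈ C1) (h' : p ∈ C2) : False :=
  sep_of_near (near_C1 h) (near_C2' h') (by rw [dist_1m1]; norm_num)

lemma C1_not_C3 {p : E3} (h : p ∈ C1) (h' : p ∈ C3) : False :=
  sep_of_near (near_C1 h) (near_C3 h') dist_12.1

lemma C1_not_C4 {p : E3} (h : p ∈ C1) (h' : p ∈ C4) : False :=
  sep_of_near (near_C1 h) (near_C4' h') dist_1m2.1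

lemma C2_not_C3 {p : E3} (h : p ∈ C2) (h' : p ∈ C3) : False :=
  sep_of_near (near_C2' h) (near_C3 h') dist_m12.1

lemma C2_not_C4 {p : E3} (h : p ∈ C2) (h' : p ∈ C4) : False :=
  sep_of_near (near_C2' h) (near_C4' h') dist_m1m2.1

lemma C3_not_C4 {p : E3} (h : p ∈ C3) (h' : p ∈ C4) : False :=
  sep_of_near (near_C3 h) (near_C4' h') (by rw [dist_2m2]; norm_num)

/-! ### The inverses of the contact maps -/

/-- The inverse of `Y` on `C1`. -/
def Yinv : E3 → E3 := Function.invFunOn Y Ab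

/-- The inverse of `Z` on `C2`. -/
def Zinv : E3 → E3 := Function.invFunOn Z Ab

lemma Yinv_Y {x : E3} (h : x ∈ Ab) : Yinv (Y x) = x :=
  injOn_Y.leftInvOn_invFunOn h

lemma Zinv_Z {x : E3} (h : x ∈ Ab) : Zinv (Z x) = x :=
  injOn_Z.leftInvOn_invFunOn h

lemma Yinv_mem {p : E3} (h : p ∈ C1) : Yinv p ∈ Ab := by
  obtain ⟨x, hx, rfl⟩ := h
  rwa [Yinv_Y hx]

lemma Zinv_mem {p : E3} (h : p ∈ C2) : Zinv p ∈ Ab := by
  obtain ⟨x, hx, rfl⟩ := h
  rwa [Zinv_Z hx]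

lemma Y_Yinv {p : E3} (h : p ∈ C1) : Y (Yinv p) = p := by
  obtain ⟨x, hx, rfl⟩ := h
  rw [Yinv_Y hx]

lemma Z_Zinv {p : E3} (h : p ∈ C2) : Z (Zinv p) = p := by
  obtain ⟨x, hx, rfl⟩ := h
  rw [Zinv_Z hx]

lemma Yinv_lip {p q : E3} (hp : p ∈ C1) (hq : q ∈ C1) : ‖Yinv p - Yinv q‖ ≤ 1 * ‖p - q‖ := by
  have := Y_lower (Yinv_mem hp) (Yinv_mem hq)
  rw [Y_Yinv hp, Y_Yinv hq] at this
  have h0 := norm_nonneg (Yinv p - Yinv q)
  linarith

lemma Zinv_lip {p q : E3} (hp : p ∈ C2) (hq : q ∈ C2) : ‖Zinv p - Zinv q‖ ≤ 6 * ‖p - q‖ := by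
  have := Z_lower (Zinv_mem hp) (Zinv_mem hq)
  rwa [Z_Zinv hp, Z_Zinv hq] at this

lemma continuousOn_Yinv : ContinuousOn Yinv C1 :=
  continuousOn_of_lip (C := 1) (fun x hx x' hx' => by simpa using Yinv_lip hx hx')

end

end Vale.Agent.P121
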