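import Vale.Agent.P121.Global

/-!
# The measure, the reference plan, and the value of the transport problem
-/

open scoped RealInnerProductSpace NNReal ENNReal
open Metric MeasureTheory

namespace Vale.Agent.P121

set_option linter.unusedSectionVars false
set_option linter.unusedVariables false

noncomputable section

/-! ### Absolute continuity -/

lemma vol_Ab_pos : volume Ab ≠ 0 := by
  have : volume (ball (0 : E3) (1 / 400000)) ≠ 0 :=
    (measure_ball_pos volume _ (by norm_num)).ne'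
  intro h
  exact this (measure_mono_null ball_subset_closedBall h)

lemma vol_Ab_top : volume Ab ≠ ⊤ := isCompact_Ab.measure_lt_top.ne

/-- Normalised Lebesgue measure on the central ball. -/
def muA : Measure E3 := (volume Ab)⁻¹ • volume.restrict Ab

lemma muA_apply (t : Set E3) : muA t = (volume Ab)⁻¹ * volume (t ∩ Ab) := by
  rw [muA, Measure.smul_apply, smul_eq_mul, Measure.restrict_apply' measurableSet_Ab]

instance : IsProbabilityMeasure muA := by
  constructor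
  rw [muA_apply, Set.univ_inter]
  exact ENNReal.inv_mul_cancel vol_Ab_pos vol_Ab_top

lemma muA_inter (t : Set E3) : muA (t ∩ Ab) = muA t := by
  rw [muA_apply, muA_apply, Set.inter_assoc, Set.inter_self]

lemma muA_null {t : Set E3} (h : ∀ x ∈ t, x ∉ Ab) : muA t = 0 := by
  rw [muA_apply]
  have : t ∩ Ab = ∅ := by
    ext x
    simp only [Set.mem_inter_iff, Set.mem_empty_iff_false, iff_false, not_and]
    exact h x
  rw [this]
  simp

lemma ae_muA_mem : ∀ᵐ x ∂muA, x ∈ Ab := by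
  rw [ae_iff]
  exact muA_null (fun x hx => hx)

lemma muA_ac : muA ≪ volume := by
  apply Measure.AbsolutelyContinuous.mk
  intro s hs h
  rw [muA_apply, measure_mono_null Set.inter_subset_left h, mul_zero]

/-- The push-forward of `muA` by an injective map with Lipschitz inverse is absolutely
continuous. -/
lemma ac_map {f : E3 → E3} (hf : Measurable f) {C : ℝ≥0}
    (h : ∀ x ∈ Ab, ∀ x' ∈ Ab, ‖x - x'‖ ≤ C * ‖f x - f x'‖) : muA.map f ≪ volume := by
  have hinj : Set.InjOn f Ab := by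
    intro x hx x' hx' hxx
    have := h x hx x' hx'
    rw [hxx, sub_self, norm_zero, mul_zero] at this
    have h2 : ‖x - x'‖ = 0 := le_antisymm this (norm_nonneg _)
    exact sub_eq_zero.mp (norm_eq_zero.mp h2)
  set g := Function.invFunOn f Ab with hg
  have hleft : ∀ x ∈ Ab, g (f x) = x := fun x hx => hinj.leftInvOn_invFunOn hx
  have hlip : LipschitzOnWith C g (f '' Ab) := by
    apply LipschitzOnWith.of_dist_le_mul
    rintro _ ⟨x, hx, rfl⟩ _ ⟨x', hx', rfl⟩
    rw [dist_eq_norm, dist_eq_norm, hleft x hx, hleft x' hx']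
    exact h x hx x' hx'
  have hH1 : (volume : Measure E3) ≪ (μH[((3 : ℕ) : ℝ)] : Measure E3) :=
    Measure.absolutelyContinuous_isAddHaarMeasure _ _
  have hH2 : (μH[((3 : ℕ) : ℝ)] : Measure E3) ≪ (volume : Measure E3) :=
    Measure.absolutelyContinuous_isAddHaarMeasure _ _
  apply Measure.AbsolutelyContinuous.mk
  intro N hN hN0
  rw [Measure.map_apply hf hN, muA_apply]
  have hsub : f ⁻¹' N ∩ Ab ⊆ g '' (N ∩ f '' Ab) := by
    rintro x ⟨hx1, hx2⟩
    exact ⟨f x, ⟨hx1, x, hx2, rfl⟩, hleft x hx2⟩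
  have h1 : (μH[((3 : ℕ) : ℝ)] : Measure E3) (N ∩ f '' Ab) = 0 :=
    hH2 (measure_mono_null Set.inter_subset_left hN0)
  have h2 : (μH[((3 : ℕ) : ℝ)] : Measure E3) (g '' (N ∩ f '' Ab)) = 0 := by
    have h3 := (hlip.mono (Set.inter_subset_right (s := N))).hausdorffMeasure_image_le
      (d := ((3 : ℕ) : ℝ)) (by norm_num)
    rw [h1, mul_zero] at h3
    exact le_antisymm h3 zero_le
  have h3 : volume (f ⁻¹' N ∩ Ab) = 0 := measure_mono_null hsub (hH1 h2)
  rw [h3, mul_zero]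

/-! ### The measure -/

/-- The total mass-six measure. -/
def big : Measure E3 :=
  (2 : ℝ≥0∞) • muA + muA.map Y + muA.map Z + muA.map Y' + muA.map Z'

/-- The counterexample. -/
def mu : Measure E3 := (6 : ℝ≥0∞)⁻¹ • big

lemma big_apply {s : Set E3} (hs : MeasurableSet s) :
    big s = 2 * muA s + muA (Y ⁻¹' s) + muA (Z ⁻¹' s) + muA (Y' ⁻¹' s) + muA (Z' ⁻¹' s) := by
  simp only [big, Measure.add_apply, Measure.smul_apply, smul_eq_mul,
    Measure.map_apply measurable_Y hs, Measure.map_apply measurable_Z hs,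
    Measure.map_apply measurable_Y' hs, Measure.map_apply measurable_Z' hs]

lemma mu_apply {s : Set E3} (hs : MeasurableSet s) :
    mu s = 6⁻¹ * (2 * muA s + muA (Y ⁻¹' s) + muA (Z ⁻¹' s) + muA (Y' ⁻¹' s) +
      muA (Z' ⁻¹' s)) := by
  rw [mu, Measure.smul_apply, smul_eq_mul, big_apply hs]

instance : IsProbabilityMeasure mu := by
  constructor
  rw [mu_apply MeasurableSet.univ]
  simp only [Set.preimage_univ, measure_univ]
  norm_num
  exact ENNReal.inv_mul_cancel (by norm_num) (by norm_num)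

lemma mu_ac : mu ≪ volume := by
  have h1 : (muA.map Y) ≪ volume :=
    ac_map measurable_Y (C := 1) (fun x hx x' hx' => by
      have := Y_lower hx hx'
      have h0 := norm_nonneg (x - x')
      simp only [NNReal.coe_one, one_mul]
      linarith)
  have h2 : (muA.map Z) ≪ volume :=
    ac_map measurable_Z (C := 6) (fun x hx x' hx' => by
      simpa using Z_lower hx hx')
  have h3 : (muA.map Y') ≪ volume :=
    ac_map measurable_Y' (C := 1) (fun x hx x' hx' => by
      have := Y_lower (rho_mem_Ab hx) (rho_mem_Ab hx')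
      rw [norm_rho_sub] at this
      have h0 := norm_nonneg (x - x')
      simp only [NNReal.coe_one, one_mul, Y', norm_rho_sub]
      linarith)
  have h4 : (muA.map Z') ≪ volume :=
    ac_map measurable_Z' (C := 6) (fun x hx x' hx' => by
      have := Z_lower (rho_mem_Ab hx) (rho_mem_Ab hx')
      rw [norm_rho_sub] at this
      simpa [Z', norm_rho_sub] using this)
  have h5 : ((2 : ℝ≥0∞) • muA) ≪ volume := Measure.smul_absolutelyContinuous.trans muA_ac
  have hb : big ≪ volume := by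
    unfold big
    exact ((((h5.add_left h1).add_left h2).add_left h3).add_left h4)
  exact Measure.smul_absolutelyContinuous.trans hb

/-- The support of `mu`. -/
lemma mu_compl_Sb : mu Sbᶜ = 0 := by
  rw [mu_apply measurableSet_Sb.compl]
  have hA : ∀ x ∈ Ab, x ∈ Sb := fun x hx => mem_Sb.mpr (Or.inl hx)
  have h1 : muA Sbᶜ = 0 := muA_null (fun x hx hx' => hx (hA x hx'))
  have h2 : muA (Y ⁻¹' Sbᶜ) = 0 :=
    muA_null (fun x hx hx' => hx (mem_Sb.mpr (Or.inr (Or.inl (Or.inl (Or.inl (Y_mem_C1 hx')))))))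
  have h3 : muA (Z ⁻¹' Sbᶜ) = 0 :=
    muA_null (fun x hx hx' => hx (mem_Sb.mpr (Or.inr (Or.inl (Or.inl (Or.inr (Z_mem_C2 hx')))))))
  have h4 : muA (Y' ⁻¹' Sbᶜ) = 0 :=
    muA_null (fun x hx hx' => hx (mem_Sb.mpr (Or.inr (Or.inl (Or.inr (Y'_mem_C3 hx'))))))
  have h5 : muA (Z' ⁻¹' Sbᶜ) = 0 :=
    muA_null (fun x hx hx' => hx (mem_Sb.mpr (Or.inr (Or.inr (Z'_mem_C4 hx')))))
  rw [h1, h2, h3, h4, h5]
  simp

lemma ae_mu_Sb : ∀ᵐ x ∂mu, x ∈ Sb := by
  rw [ae_iff]
  exact mu_compl_Sb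

/-- Mass of a subset of the central ball. -/
lemma mu_sub_Ab {G : Set E3} (hG : MeasurableSet G) (hGA : G ⊆ Ab) : mu G = 3⁻¹ * muA G := by
  rw [mu_apply hG]
  have h2 : muA (Y ⁻¹' G) = 0 := muA_null (fun x hx hx' => Ab_not_C1 (hGA hx) (Y_mem_C1 hx'))
  have h3 : muA (Z ⁻¹' G) = 0 := muA_null (fun x hx hx' => Ab_not_C2 (hGA hx) (Z_mem_C2 hx'))
  have h4 : muA (Y' ⁻¹' G) = 0 := muA_null (fun x hx hx' => Ab_not_C3 (hGA hx) (Y'_mem_C3 hx'))
  have h5 : muA (Z' ⁻¹' G) = 0 := muA_null (fun x hx hx' => Ab_not_C4 (hGA hx) (Z'_mem_C4 hx'))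
  rw [h2, h3, h4, h5, add_zero, add_zero, add_zero, add_zero, ← mul_assoc]
  congr 1
  rw [show (6 : ℝ≥0∞) = 2 * 3 by norm_num, ENNReal.mul_inv (by norm_num) (by norm_num),
    mul_comm (2 : ℝ≥0∞)⁻¹, mul_assoc, ENNReal.inv_mul_cancel (by norm_num) (by norm_num), mul_one]

/-- Mass of the image of a subset of the central ball under `Y`. -/
lemma mu_Y_image {G : Set E3} (hGA : G ⊆ Ab) (hP : MeasurableSet (Y '' G)) (hGm : MeasurableSet G) :
    mu (Y '' G) = 6⁻¹ * muA G := by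
  have hPC : ∀ p ∈ Y '' G, p ∈ C1 := by
    rintro _ ⟨g, hg, rfl⟩
    exact Y_mem_C1 (hGA hg)
  rw [mu_apply hP]
  have h1 : muA (Y '' G) = 0 := muA_null (fun x hx hx' => Ab_not_C1 hx' (hPC x hx))
  have h3 : muA (Z ⁻¹' (Y '' G)) = 0 :=
    muA_null (fun x hx hx' => C1_not_C2 (hPC _ hx) (Z_mem_C2 hx'))
  have h4 : muA (Y' ⁻¹' (Y '' G)) = 0 :=
    muA_null (fun x hx hx' => C1_not_C3 (hPC _ hx) (Y'_mem_C3 hx'))
  have h5 : muA (Z' ⁻¹' (Y '' G)) = 0 :=
    muA_null (fun x hx hx' => C1_not_C4 (hPC _ hx) (Z'_mem_C4 hx'))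
  have h2 : muA (Y ⁻¹' (Y '' G)) = muA G := by
    rw [← muA_inter, ← muA_inter G]
    congr 1
    ext x
    constructor
    · rintro ⟨⟨g, hg, hgx⟩, hx⟩
      have : g = x := injOn_Y (hGA hg) hx hgx
      exact ⟨this ▸ hg, hx⟩
    · rintro ⟨hx, hx'⟩
      exact ⟨⟨x, hx, rfl⟩, hx'⟩
  rw [h1, h2, h3, h4, h5]
  simp

/-- Mass of the image of a subset of the central ball under `Z`. -/
lemma mu_Z_image {G : Set E3} (hGA : G ⊆ Ab) (hP : MeasurableSet (Z '' G)) (hGm : MeasurableSet G) :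
    mu (Z '' G) = 6⁻¹ * muA G := by
  have hPC : ∀ p ∈ Z '' G, p ∈ C2 := by
    rintro _ ⟨g, hg, rfl⟩
    exact Z_mem_C2 (hGA hg)
  rw [mu_apply hP]
  have h1 : muA (Z '' G) = 0 := muA_null (fun x hx hx' => Ab_not_C2 hx' (hPC x hx))
  have h3 : muA (Y ⁻¹' (Z '' G)) = 0 :=
    muA_null (fun x hx hx' => C1_not_C2 (Y_mem_C1 hx') (hPC _ hx))
  have h4 : muA (Y' ⁻¹' (Z '' G)) = 0 :=
    muA_null (fun x hx hx' => C2_not_C3 (hPC _ hx) (Y'_mem_C3 hx'))
  have h5 : muA (Z' ⁻¹' (Z '' G)) = 0 :=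
    muA_null (fun x hx hx' => C2_not_C4 (hPC _ hx) (Z'_mem_C4 hx'))
  have h2 : muA (Z ⁻¹' (Z '' G)) = muA G := by
    rw [← muA_inter, ← muA_inter G]
    congr 1
    ext x
    constructor
    · rintro ⟨⟨g, hg, hgx⟩, hx⟩
      have : g = x := injOn_Z (hGA hg) hx hgx
      exact ⟨this ▸ hg, hx⟩
    · rintro ⟨hx, hx'⟩
      exact ⟨⟨x, hx, rfl⟩, hx'⟩
  rw [h1, h2, h3, h4, h5]
  simp

end

end Vale.Agent.P121
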