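import Vale.Agent.P121.Field

/-!
# Solving the stationarity system by a contraction
-/

open scoped RealInnerProductSpace NNReal
open Metric

namespace Vale.Agent.P121

set_option linter.unusedSectionVars false
set_option linter.unusedVariables false

variable {V : Type*} [NormedAddCommGroup V] [InnerProductSpace ℝ V]

lemma fld_lip_unit {u u' : V} (hu : 4 / 5 ≤ ‖u‖) (hu' : 4 / 5 ≤ ‖u'‖) :
    ‖fld u - fld u'‖ ≤ 4 * ‖u - u'‖ := by
  have := fld_lip (d := 4 / 5) (by norm_num) hu hu'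
  have h2 : (2 / (4 / 5 : ℝ) ^ 3) ≤ 4 := by norm_num
  nlinarith [norm_nonneg (u - u')]

lemma fld_lip_two {u u' : V} (hu : 9 / 5 ≤ ‖u‖) (hu' : 9 / 5 ≤ ‖u'‖) :
    ‖fld u - fld u'‖ ≤ (1 / 2) * ‖u - u'‖ := by
  have := fld_lip (d := 9 / 5) (by norm_num) hu hu'
  have h2 : (2 / (9 / 5 : ℝ) ^ 3) ≤ 1 / 2 := by norm_num
  nlinarith [norm_nonneg (u - u')]

lemma fld_low_unit {u u' : V} (hu0 : u ≠ 0) (hu0' : u' ≠ 0) (hu : ‖u‖ ≤ 6 / 5) (hu' : ‖u'‖ ≤ 6 / 5) :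
    (1 / 2) * ‖u - u'‖ ≤ ‖fld u - fld u'‖ := by
  have := fld_lower hu0 hu0' hu hu'
  have h2 : (1 / 2 : ℝ) ≤ 1 / (6 / 5) ^ 3 := by norm_num
  nlinarith [norm_nonneg (u - u')]

lemma fld_low_two {u u' : V} (hu0 : u ≠ 0) (hu0' : u' ≠ 0) (hu : ‖u‖ ≤ 11 / 5) (hu' : ‖u'‖ ≤ 11 / 5) :
    (1 / 11) * ‖u - u'‖ ≤ ‖fld u - fld u'‖ := by
  have := fld_lower hu0 hu0' hu hu'
  have h2 : (1 / 11 : ℝ) ≤ 1 / (11 / 5) ^ 3 := by norm_num
  nlinarith [norm_nonneg (u - u')]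

lemma fld_unit {e : V} (he : ‖e‖ = 1) : fld e = e := by
  simp [fld, he]

lemma fld_neg_unit {e : V} (he : ‖e‖ = 1) : fld (-e) = -e := by
  rw [fld_neg, fld_unit he]

lemma fld_two {e : V} (he : ‖e‖ = 1) : fld ((2 : ℝ) • e) = (1 / 4 : ℝ) • e := by
  simp only [fld, norm_smul, he]
  rw [smul_smul]
  norm_num

/-- The stationarity system for a contact triple on the first sheet. -/
structure IsSol (e x y z : V) : Prop where
  s1 : fld (y - x) + fld (z - x) = (-400 : ℝ) • x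
  s2 : fld (x - z) + fld (y - z) = (5 / 4 : ℝ) • e - (20 : ℝ) • (z + e)
  hy : ‖y - e‖ ≤ 13 / 1000
  hz : ‖z + e‖ ≤ 1 / 1000

/-- The right-hand side determining `y`. -/
noncomputable def V0 (x z : V) : V := (-400 : ℝ) • x - fld (z - x)

/-- `y` as a function of `(x, z)`. -/
noncomputable def yOf (x z : V) : V := x + psi (V0 x z)

/-- The fixed-point map for `z`. -/
noncomputable def Phi (e x z : V) : V :=
  -e + (1 / 20 : ℝ) • ((5 / 4 : ℝ) • e - fld (x - z) - fld (yOf x z - z))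

section bands

variable {e x z : V}

lemma band_zx (he : ‖e‖ = 1) (hx : ‖x‖ ≤ 1 / 400000) (hz : ‖z + e‖ ≤ 1 / 1000) :
    ‖z - x - (-e)‖ ≤ 1 / 1000 + 1 / 400000 := by
  have : z - x - (-e) = (z + e) - x := by abel
  rw [this]
  calc _ ≤ ‖z + e‖ + ‖x‖ := norm_sub_le _ _
    _ ≤ _ := by linarith

lemma norm_zx_lower (he : ‖e‖ = 1) (hx : ‖x‖ ≤ 1 / 400000) (hz : ‖z + e‖ ≤ 1 / 1000) :
    4 / 5 ≤ ‖z - x‖ := by
  have h := band_zx he hx hz
  have h2 : ‖-e‖ ≤ ‖z - x‖ + ‖z - x - (-e)‖ := by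
    have := norm_sub_le (z - x) (z - x - (-e))
    simpa using this
  rw [norm_neg, he] at h2
  linarith

lemma norm_zx_upper (he : ‖e‖ = 1) (hx : ‖x‖ ≤ 1 / 400000) (hz : ‖z + e‖ ≤ 1 / 1000) :
    ‖z - x‖ ≤ 6 / 5 := by
  have h := band_zx he hx hz
  have h2 : ‖z - x‖ ≤ ‖-e‖ + ‖z - x - (-e)‖ := by
    have := norm_add_le (-e) (z - x - (-e))
    simpa using this
  rw [norm_neg, he] at h2
  linarith

lemma V0_sub_e (he : ‖e‖ = 1) (hx : ‖x‖ ≤ 1 / 400000) (hz : ‖z + e‖ ≤ 1 / 1000) :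
    ‖V0 x z - e‖ ≤ 6 / 1000 := by
  have h1 : V0 x z - e = (-400 : ℝ) • x - (fld (z - x) - fld (-e)) := by
    rw [fld_neg_unit he, V0]; abel
  have h2 : ‖fld (z - x) - fld (-e)‖ ≤ 4 * ‖z - x - (-e)‖ :=
    fld_lip_unit (norm_zx_lower he hx hz) (by rw [norm_neg, he]; norm_num)
  have h3 := band_zx he hx hz
  have h4 : ‖(-400 : ℝ) • x‖ = 400 * ‖x‖ := by
    rw [norm_smul]; norm_num
  rw [h1]
  calc _ ≤ ‖(-400 : ℝ) • x‖ + ‖fld (z - x) - fld (-e)‖ := norm_sub_le _ _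
    _ ≤ _ := by rw [h4]; linarith

lemma V0_norm_bounds (he : ‖e‖ = 1) (hx : ‖x‖ ≤ 1 / 400000) (hz : ‖z + e‖ ≤ 1 / 1000) :
    994 / 1000 ≤ ‖V0 x z‖ ∧ ‖V0 x z‖ ≤ 1006 / 1000 := by
  have h := V0_sub_e he hx hz
  constructor
  · have h2 : ‖e‖ ≤ ‖V0 x z‖ + ‖V0 x z - e‖ := by
      have := norm_sub_le (V0 x z) (V0 x z - e)
      simpa using this
    rw [he] at h2
    linarith
  · have h2 : ‖V0 x z‖ ≤ ‖e‖ + ‖V0 x z - e‖ := by
      have := norm_add_le e (V0 x z - e)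
      simpa using this
    rw [he] at h2
    linarith

lemma V0_ne_zero (he : ‖e‖ = 1) (hx : ‖x‖ ≤ 1 / 400000) (hz : ‖z + e‖ ≤ 1 / 1000) :
    V0 x z ≠ 0 := by
  rw [← norm_pos_iff]
  have := (V0_norm_bounds he hx hz).1
  linarith

lemma psi_band_of {W : V} (h1 : 994 / 1000 ≤ ‖W‖) (h2 : ‖W‖ ≤ 1006 / 1000) :
    4 / 5 ≤ ‖psi W‖ ∧ ‖psi W‖ ≤ 6 / 5 := by
  have hW : W ≠ 0 := by
    rw [← norm_pos_iff]; linarith
  rw [norm_psi hW]
  have h3 : (9 / 10 : ℝ) ≤ Real.sqrt ‖W‖ := by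
    apply Real.le_sqrt_of_sq_le
    linarith
  have h4 : Real.sqrt ‖W‖ ≤ 11 / 10 := by
    rw [Real.sqrt_le_left (by norm_num)]
    linarith
  have hs : 0 < Real.sqrt ‖W‖ := by linarith
  constructor
  · rw [le_inv_comm₀ (by norm_num) hs]
    linarith
  · rw [inv_le_comm₀ hs (by norm_num)]
    linarith

lemma psi_V0_band (he : ‖e‖ = 1) (hx : ‖x‖ ≤ 1 / 400000) (hz : ‖z + e‖ ≤ 1 / 1000) :
    4 / 5 ≤ ‖psi (V0 x z)‖ ∧ ‖psi (V0 x z)‖ ≤ 6 / 5 :=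
  psi_band_of (V0_norm_bounds he hx hz).1 (V0_norm_bounds he hx hz).2

lemma psi_V0_sub_e (he : ‖e‖ = 1) (hx : ‖x‖ ≤ 1 / 400000) (hz : ‖z + e‖ ≤ 1 / 1000) :
    ‖psi (V0 x z) - e‖ ≤ 12 / 1000 := by
  have hV := V0_ne_zero he hx hz
  have hb := psi_V0_band he hx hz
  have he0 : e ≠ 0 := by
    rw [← norm_pos_iff, he]; norm_num
  have h := fld_low_unit (psi_ne_zero hV) he0 hb.2 (by rw [he]; norm_num)
  rw [fld_psi hV, fld_unit he] at h
  have := V0_sub_e he hx hz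
  linarith

lemma yOf_sub_e (he : ‖e‖ = 1) (hx : ‖x‖ ≤ 1 / 400000) (hz : ‖z + e‖ ≤ 1 / 1000) :
    ‖yOf x z - e‖ ≤ 13 / 1000 := by
  have : yOf x z - e = x + (psi (V0 x z) - e) := by rw [yOf]; abel
  rw [this]
  have h := psi_V0_sub_e he hx hz
  calc _ ≤ ‖x‖ + ‖psi (V0 x z) - e‖ := norm_add_le _ _
    _ ≤ _ := by linarith

end bands

/-- Generic band estimates for a triple near `(0, e, -e)`. -/
lemma band_yx {e x y : V} (he : ‖e‖ = 1) (hx : ‖x‖ ≤ 1 / 400000) (hy : ‖y - e‖ ≤ 13 / 1000) :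
    4 / 5 ≤ ‖y - x‖ ∧ ‖y - x‖ ≤ 6 / 5 := by
  have h : ‖y - x - e‖ ≤ 13 / 1000 + 1 / 400000 := by
    have : y - x - e = (y - e) - x := by abel
    rw [this]
    calc _ ≤ ‖y - e‖ + ‖x‖ := norm_sub_le _ _
      _ ≤ _ := by linarith
  constructor
  · have h2 : ‖e‖ ≤ ‖y - x‖ + ‖y - x - e‖ := by
      have := norm_sub_le (y - x) (y - x - e)
      simpa using this
    rw [he] at h2
    linarith
  · have h2 : ‖y - x‖ ≤ ‖e‖ + ‖y - x - e‖ := by
      have := norm_add_le e (y - x - e)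
      simpa using this
    rw [he] at h2
    linarith

lemma band_xz {e x z : V} (he : ‖e‖ = 1) (hx : ‖x‖ ≤ 1 / 400000) (hz : ‖z + e‖ ≤ 1 / 1000) :
    4 / 5 ≤ ‖x - z‖ ∧ ‖x - z‖ ≤ 6 / 5 := by
  rw [norm_sub_rev]
  exact ⟨norm_zx_lower he hx hz, norm_zx_upper he hx hz⟩

lemma xz_sub_e {e x z : V} (hx : ‖x‖ ≤ 1 / 400000) (hz : ‖z + e‖ ≤ 1 / 1000) :
    ‖x - z - e‖ ≤ 1 / 1000 + 1 / 400000 := by
  have : x - z - e = x - (z + e) := by abel
  rw [this]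
  calc _ ≤ ‖x‖ + ‖z + e‖ := norm_sub_le _ _
    _ ≤ _ := by linarith

lemma yz_sub_two {e y z : V} (hy : ‖y - e‖ ≤ 13 / 1000) (hz : ‖z + e‖ ≤ 1 / 1000) :
    ‖y - z - (2 : ℝ) • e‖ ≤ 14 / 1000 := by
  have : y - z - (2 : ℝ) • e = (y - e) - (z + e) := by
    rw [two_smul]; abel
  rw [this]
  calc _ ≤ ‖y - e‖ + ‖z + e‖ := norm_sub_le _ _
    _ ≤ _ := by linarith

lemma band_yz {e y z : V} (he : ‖e‖ = 1) (hy : ‖y - e‖ ≤ 13 / 1000) (hz : ‖z + e‖ ≤ 1 / 1000) :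
    9 / 5 ≤ ‖y - z‖ ∧ ‖y - z‖ ≤ 11 / 5 := by
  have h := yz_sub_two hy hz
  have h2e : ‖(2 : ℝ) • e‖ = 2 := by
    rw [norm_smul, he]; norm_num
  constructor
  · have h2 : ‖(2 : ℝ) • e‖ ≤ ‖y - z‖ + ‖y - z - (2 : ℝ) • e‖ := by
      have := norm_sub_le (y - z) (y - z - (2 : ℝ) • e)
      simpa using this
    rw [h2e] at h2
    linarith
  · have h2 : ‖y - z‖ ≤ ‖(2 : ℝ) • e‖ + ‖y - z - (2 : ℝ) • e‖ := by
      have := norm_add_le ((2 : ℝ) • e) (y - z - (2 : ℝ) • e)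
      simpa using this
    rw [h2e] at h2
    linarith

lemma ne_zero_of_lower {u : V} {a : ℝ} (ha : 0 < a) (h : a ≤ ‖u‖) : u ≠ 0 := by
  rw [← norm_pos_iff]; linarith

section fixed

variable {e x : V}

lemma Phi_maps (he : ‖e‖ = 1) (hx : ‖x‖ ≤ 1 / 400000) {z : V} (hz : ‖z + e‖ ≤ 1 / 1000) :
    ‖Phi e x z + e‖ ≤ 1 / 1000 := by
  have hy := yOf_sub_e he hx hz
  have hb1 := band_xz he hx hz
  have hb2 := band_yz he hy hz
  have e1 : Phi e x z + e =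
      (1 / 20 : ℝ) • ((fld e - fld (x - z)) + (fld ((2 : ℝ) • e) - fld (yOf x z - z))) := by
    rw [Phi, fld_unit he, fld_two he]
    module
  have h1 : ‖fld (x - z) - fld e‖ ≤ 4 * ‖x - z - e‖ :=
    fld_lip_unit hb1.1 (by rw [he]; norm_num)
  have h2 : ‖fld (yOf x z - z) - fld ((2 : ℝ) • e)‖ ≤ (1 / 2) * ‖yOf x z - z - (2 : ℝ) • e‖ :=
    fld_lip_two hb2.1 (by rw [norm_smul, he]; norm_num)
  have h3 := xz_sub_e hx hz
  have h4 := yz_sub_two hy hz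
  rw [e1, norm_smul]
  have h5 : ‖(fld e - fld (x - z)) + (fld ((2 : ℝ) • e) - fld (yOf x z - z))‖ ≤
      ‖fld e - fld (x - z)‖ + ‖fld ((2 : ℝ) • e) - fld (yOf x z - z)‖ := norm_add_le _ _
  rw [norm_sub_rev (fld e), norm_sub_rev (fld ((2 : ℝ) • e))] at h5
  have h6 : ‖(1 / 20 : ℝ)‖ = 1 / 20 := by norm_num
  rw [h6]
  linarith

lemma Phi_lip (he : ‖e‖ = 1) (hx : ‖x‖ ≤ 1 / 400000) {z z' : V} (hz : ‖z + e‖ ≤ 1 / 1000)
    (hz' : ‖z' + e‖ ≤ 1 / 1000) :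
    ‖Phi e x z - Phi e x z'‖ ≤ (17 / 40) * ‖z - z'‖ := by
  have hy := yOf_sub_e he hx hz
  have hy' := yOf_sub_e he hx hz'
  have hV := V0_ne_zero he hx hz
  have hV' := V0_ne_zero he hx hz'
  have hb := psi_V0_band he hx hz
  have hb' := psi_V0_band he hx hz'
  -- the change in `V0`
  have hdV : ‖V0 x z - V0 x z'‖ ≤ 4 * ‖z - z'‖ := by
    have e1 : V0 x z - V0 x z' = fld (z' - x) - fld (z - x) := by
      rw [V0, V0]; abel
    rw [e1, norm_sub_rev]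
    have := fld_lip_unit (norm_zx_lower he hx hz) (norm_zx_lower he hx hz')
    have e2 : z - x - (z' - x) = z - z' := by abel
    rwa [e2] at this
  -- the change in `y`
  have hdy : ‖yOf x z - yOf x z'‖ ≤ 8 * ‖z - z'‖ := by
    have e1 : yOf x z - yOf x z' = psi (V0 x z) - psi (V0 x z') := by
      rw [yOf, yOf]; abel
    have h := fld_low_unit (psi_ne_zero hV) (psi_ne_zero hV') hb.2 hb'.2
    rw [fld_psi hV, fld_psi hV'] at h
    rw [e1]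
    linarith
  have hb1 := band_xz he hx hz
  have hb1' := band_xz he hx hz'
  have hb2 := band_yz he hy hz
  have hb2' := band_yz he hy' hz'
  have h1 : ‖fld (x - z) - fld (x - z')‖ ≤ 4 * ‖z - z'‖ := by
    have := fld_lip_unit hb1.1 hb1'.1
    have e2 : x - z - (x - z') = -(z - z') := by abel
    rwa [e2, norm_neg] at this
  have h2 : ‖fld (yOf x z - z) - fld (yOf x z' - z')‖ ≤ (1 / 2) * (9 * ‖z - z'‖) := by
    have := fld_lip_two hb2.1 hb2'.1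
    have e2 : yOf x z - z - (yOf x z' - z') = (yOf x z - yOf x z') - (z - z') := by abel
    rw [e2] at this
    have h3 : ‖(yOf x z - yOf x z') - (z - z')‖ ≤ ‖yOf x z - yOf x z'‖ + ‖z - z'‖ := norm_sub_le _ _
    linarith
  have e1 : Phi e x z - Phi e x z' =
      (1 / 20 : ℝ) • (-(fld (x - z) - fld (x - z')) - (fld (yOf x z - z) - fld (yOf x z' - z'))) := by
    rw [Phi, Phi]
    module
  rw [e1, norm_smul]
  have h6 : ‖(1 / 20 : ℝ)‖ = 1 / 20 := by norm_num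
  rw [h6]
  have h7 : ‖-(fld (x - z) - fld (x - z')) - (fld (yOf x z - z) - fld (yOf x z' - z'))‖ ≤
      ‖fld (x - z) - fld (x - z')‖ + ‖fld (yOf x z - z) - fld (yOf x z' - z')‖ := by
    calc _ ≤ ‖-(fld (x - z) - fld (x - z'))‖ + ‖fld (yOf x z - z) - fld (yOf x z' - z')‖ :=
          norm_sub_le _ _
      _ = _ := by rw [norm_neg]
  nlinarith [norm_nonneg (z - z')]

end fixed

/-- Existence of a solution of the stationarity system, for each small `x`. -/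
theorem exists_sol [CompleteSpace V] {e x : V} (he : ‖e‖ = 1) (hx : ‖x‖ ≤ 1 / 400000) :
    ∃ y z : V, IsSol e x y z := by
  set s : Set V := closedBall (-e) (1 / 1000) with hs
  have hmem : ∀ {z : V}, z ∈ s ↔ ‖z + e‖ ≤ 1 / 1000 := by
    intro z
    rw [hs, mem_closedBall, dist_eq_norm, sub_neg_eq_add]
  have hsc : IsComplete s := isClosed_closedBall.isComplete
  have hsf : Set.MapsTo (Phi e x) s s := fun z hz => hmem.mpr (Phi_maps he hx (hmem.mp hz))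
  have hcon : ContractingWith (17 / 40 : ℝ≥0) (hsf.restrict (Phi e x) s s) := by
    refine ⟨by norm_num [← NNReal.coe_lt_coe] ,?_⟩
    apply LipschitzWith.of_dist_le_mul
    rintro ⟨z, hz⟩ ⟨z', hz'⟩
    change dist (Phi e x z) (Phi e x z') ≤ ((17 / 40 : ℝ≥0) : ℝ) * dist z z'
    rw [dist_eq_norm, dist_eq_norm]
    simpa using Phi_lip he hx (hmem.mp hz) (hmem.mp hz')
  have hc : (-e) ∈ s := mem_closedBall_self (by norm_num)
  obtain ⟨z, hzs, hfix, -, -⟩ := hcon.exists_fixedPoint' hsc hsf hc (edist_ne_top _ _)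
  have hz := hmem.mp hzs
  refine ⟨yOf x z, z, ?_, ?_, yOf_sub_e he hx hz, hz⟩
  · have hV := V0_ne_zero he hx hz
    have : yOf x z - x = psi (V0 x z) := by rw [yOf]; abel
    rw [this, fld_psi hV, V0]
    abel
  · have h : Phi e x z = z := hfix
    have h2 : z + e = (1 / 20 : ℝ) •
        ((5 / 4 : ℝ) • e - fld (x - z) - fld (yOf x z - z)) := by
      conv_lhs => rw [← h, Phi]
      module
    have h3 : (20 : ℝ) • (z + e) = (5 / 4 : ℝ) • e - fld (x - z) - fld (yOf x z - z) := by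
      rw [h2, smul_smul]
      norm_num
    rw [h3]
    abel

end Vale.Agent.P121
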