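import Vale.Agent.P121.Plan

/-!
# The value of the transport problem, via the dual potentials and a reference plan
-/

open scoped RealInnerProductSpace NNReal ENNReal
open Metric MeasureTheory

namespace Vale.Agent.P121

set_option linter.unusedSectionVars false
set_option linter.unusedVariables false

noncomputable section

/-! ### Measurability -/

lemma continuous_Wf : Continuous (Wf : E3 → ℝ) := by
  unfold Wf
  fun_prop

lemma continuous_v2R : Continuous v2R := by
  unfold v2R v2f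
  fun_prop

lemma continuousOn_Gf : ContinuousOn Gf Ab := by
  have hY := continuousOn_Y
  have hZ := continuousOn_Z
  have hid : ContinuousOn (fun g : E3 => g) Ab := continuousOn_id
  have h1 : ContinuousOn (fun g => ‖g - Y g‖⁻¹) Ab :=
    (hid.sub hY).norm.inv₀ (fun g hg => by
      have : g - Y g ≠ 0 := sub_ne_zero.mpr (fun h => Ab_not_C1 hg (h ▸ Y_mem_C1 hg))
      exact norm_ne_zero_iff.mpr this)
  have h2 : ContinuousOn (fun g => ‖g - Z g‖⁻¹) Ab :=
    (hid.sub hZ).norm.inv₀ (fun g hg => by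
      have : g - Z g ≠ 0 := sub_ne_zero.mpr (fun h => Ab_not_C2 hg (h ▸ Z_mem_C2 hg))
      exact norm_ne_zero_iff.mpr this)
  have h3 : ContinuousOn (fun g => ‖Y g - Z g‖⁻¹) Ab :=
    (hY.sub hZ).norm.inv₀ (fun g hg => by
      have : Y g - Z g ≠ 0 := sub_ne_zero.mpr (fun h => C1_not_C2 (Y_mem_C1 hg) (h ▸ Z_mem_C2 hg))
      exact norm_ne_zero_iff.mpr this)
  have h4 : ContinuousOn (fun g => Wf g) Ab := continuous_Wf.continuousOn
  have h5 : ContinuousOn (fun g => v2R (Z g)) Ab := continuous_v2R.comp_continuousOn hZ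
  exact ((h1.add h2).add h3).sub h4 |>.sub h5

lemma continuousOn_v1f : ContinuousOn v1f C1 := by
  have : ContinuousOn (Gf ∘ Yinv) C1 :=
    continuousOn_Gf.comp continuousOn_Yinv (fun p hp => Yinv_mem hp)
  exact this

open Classical in
lemma measurable_ind_v1 : Measurable (C1.indicator v1f) := by
  have h : C1.indicator v1f = C1.piecewise v1f (fun _ => 0) := by
    funext p
    by_cases hp : p ∈ C1 <;> simp [hp]
  rw [h]
  exact continuousOn_v1f.measurable_piecewise continuousOn_const isCompact_C1.measurableSet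

lemma measurable_uC : Measurable uC := by
  unfold uC
  exact measurable_ind_v1.add (continuous_v2R.measurable.indicator isCompact_C2.measurableSet)

lemma measurable_uR : Measurable uR := by
  unfold uR
  exact ((continuous_Wf.measurable.indicator measurableSet_Ab).add measurable_uC).add
    (measurable_uC.comp measurable_rho)

lemma measurable_uE : Measurable uE := measurable_uR.ennreal_ofReal

/-- The direct sum of the potential. -/
def Uf (p : E3 × E3 × E3) : ℝ≥0∞ := uE p.1 + uE p.2.1 + uE p.2.2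

/-- The cost as a function on triples. -/
def coul (p : E3 × E3 × E3) : ℝ≥0∞ := coulomb p.1 p.2.1 p.2.2

lemma measurable_Uf : Measurable Uf := by
  unfold Uf
  have := measurable_uE
  fun_prop

lemma measurable_coul : Measurable coul := by
  unfold coul coulomb
  fun_prop

/-! ### The dual bound -/

/-- Three times the integral of the potential. -/
def Vv : ℝ≥0∞ := ∫⁻ x, uE x ∂mu + ∫⁻ x, uE x ∂mu + ∫⁻ x, uE x ∂mu

lemma uE_le (p : E3) : uE p ≤ ENNReal.ofReal 2 := ENNReal.ofReal_le_ofReal (uR_le_two p)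

lemma lint_uE_lt_top : ∫⁻ x, uE x ∂mu < ⊤ := by
  calc ∫⁻ x, uE x ∂mu ≤ ∫⁻ _, ENNReal.ofReal 2 ∂mu := lintegral_mono uE_le
    _ = ENNReal.ofReal 2 := by simp
    _ < ⊤ := ENNReal.ofReal_lt_top

lemma Vv_lt_top : Vv < ⊤ := by
  unfold Vv
  exact ENNReal.add_lt_top.mpr ⟨ENNReal.add_lt_top.mpr ⟨lint_uE_lt_top, lint_uE_lt_top⟩,
    lint_uE_lt_top⟩

lemma meas_fst : Measurable (fun p : E3 × E3 × E3 => p.1) := by fun_prop
lemma meas_snd1 : Measurable (fun p : E3 × E3 × E3 => p.2.1) := by fun_prop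
lemma meas_snd2 : Measurable (fun p : E3 × E3 × E3 => p.2.2) := by fun_prop

lemma lint_Uf {π : Measure (E3 × E3 × E3)} (h : IsCoupling mu π) : ∫⁻ p, Uf p ∂π = Vv := by
  obtain ⟨h1, h2, h3⟩ := h
  have a1 : ∫⁻ x, uE x ∂mu = ∫⁻ p, uE p.1 ∂π := by
    conv_lhs => rw [← h1]
    rw [lintegral_map measurable_uE meas_fst]
  have a2 : ∫⁻ x, uE x ∂mu = ∫⁻ p, uE p.2.1 ∂π := by
    conv_lhs => rw [← h2]
    rw [lintegral_map measurable_uE meas_snd1]
  have a3 : ∫⁻ x, uE x ∂mu = ∫⁻ p, uE p.2.2 ∂π := by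
    conv_lhs => rw [← h3]
    rw [lintegral_map measurable_uE meas_snd2]
  have m1 : Measurable (fun p : E3 × E3 × E3 => uE p.1) := measurable_uE.comp meas_fst
  have m2 : Measurable (fun p : E3 × E3 × E3 => uE p.2.1) := measurable_uE.comp meas_snd1
  have m12 : Measurable (fun p : E3 × E3 × E3 => uE p.1 + uE p.2.1) := m1.add m2
  unfold Uf Vv
  rw [lintegral_add_left m12, lintegral_add_left m1, ← a1, ← a2, ← a3]

lemma ae_coupling {π : Measure (E3 × E3 × E3)} (h : IsCoupling mu π) :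
    ∀ᵐ p ∂π, p.1 ∈ Sb ∧ p.2.1 ∈ Sb ∧ p.2.2 ∈ Sb := by
  obtain ⟨h1, h2, h3⟩ := h
  have a1 : ∀ᵐ p ∂π, p.1 ∈ Sb := by
    have := ae_mu_Sb
    rw [← h1] at this
    exact ae_of_ae_map meas_fst.aemeasurable this
  have a2 : ∀ᵐ p ∂π, p.2.1 ∈ Sb := by
    have := ae_mu_Sb
    rw [← h2] at this
    exact ae_of_ae_map meas_snd1.aemeasurable this
  have a3 : ∀ᵐ p ∂π, p.2.2 ∈ Sb := by
    have := ae_mu_Sb
    rw [← h3] at this
    exact ae_of_ae_map meas_snd2.aemeasurable this
  filter_upwards [a1, a2, a3] with p h1 h2 h3 using ⟨h1, h2, h3⟩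

lemma cost_ge {π : Measure (E3 × E3 × E3)} (h : IsCoupling mu π) : Vv ≤ ∫⁻ p, coul p ∂π := by
  rw [← lint_Uf h]
  apply lintegral_mono_ae
  filter_upwards [ae_coupling h] with p hp
  exact (dual_ineq hp.1 hp.2.1 hp.2.2).1

/-! ### The reference plan -/

/-- The first sheet of contact triples. -/
def f1 (x : E3) : E3 × E3 × E3 := (x, Y x, Z x)

/-- The second sheet of contact triples. -/
def f2 (x : E3) : E3 × E3 × E3 := (x, Y' x, Z' x)

lemma measurable_f1 : Measurable f1 := measurable_id.prodMk (measurable_Y.prodMk measurable_Z)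

lemma measurable_f2 : Measurable f2 := measurable_id.prodMk (measurable_Y'.prodMk measurable_Z')

/-- The non-symmetrised plan. -/
def Theta : Measure (E3 × E3 × E3) := muA.map f1 + muA.map f2

/-- The cyclic permutation of the three slots. -/
def sig (p : E3 × E3 × E3) : E3 × E3 × E3 := (p.2.1, p.2.2, p.1)

lemma measurable_sig : Measurable sig := by
  unfold sig
  fun_prop

/-- The reference plan. -/
def pi0 : Measure (E3 × E3 × E3) :=
  (6 : ℝ≥0∞)⁻¹ • (Theta + Theta.map sig + (Theta.map sig).map sig)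

lemma map_Theta_fst : Theta.map (fun p => p.1) = (2 : ℝ≥0∞) • muA := by
  rw [Theta, Measure.map_add _ _ meas_fst, Measure.map_map meas_fst measurable_f1,
    Measure.map_map meas_fst measurable_f2, two_smul]
  have e1 : (fun p : E3 × E3 × E3 => p.1) ∘ f1 = id := rfl
  have e2 : (fun p : E3 × E3 × E3 => p.1) ∘ f2 = id := rfl
  rw [e1, e2, Measure.map_id]

lemma map_Theta_snd1 : Theta.map (fun p => p.2.1) = muA.map Y + muA.map Y' := by
  rw [Theta, Measure.map_add _ _ meas_snd1, Measure.map_map meas_snd1 measurable_f1,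
    Measure.map_map meas_snd1 measurable_f2]
  rfl

lemma map_Theta_snd2 : Theta.map (fun p => p.2.2) = muA.map Z + muA.map Z' := by
  rw [Theta, Measure.map_add _ _ meas_snd2, Measure.map_map meas_snd2 measurable_f1,
    Measure.map_map meas_snd2 measurable_f2]
  rfl

lemma map_pi0 {g : E3 × E3 × E3 → E3} (hg : Measurable g) :
    pi0.map g = (6 : ℝ≥0∞)⁻¹ • (Theta.map g + Theta.map (g ∘ sig) + Theta.map (g ∘ sig ∘ sig)) := by
  rw [pi0, Measure.map_smul, Measure.map_add _ _ hg, Measure.map_add _ _ hg,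
    Measure.map_map hg measurable_sig, Measure.map_map hg measurable_sig,
    Measure.map_map (hg.comp measurable_sig) measurable_sig]
  rfl

lemma pi0_coupling : IsCoupling mu pi0 := by
  refine ⟨?_, ?_, ?_⟩
  · rw [map_pi0 meas_fst]
    have e1 : (fun p : E3 × E3 × E3 => p.1) ∘ sig = fun p => p.2.1 := rfl
    have e2 : (fun p : E3 × E3 × E3 => p.1) ∘ sig ∘ sig = fun p => p.2.2 := rfl
    rw [e1, e2, map_Theta_fst, map_Theta_snd1, map_Theta_snd2, mu, big]
    congr 1
    abel
  · rw [map_pi0 meas_snd1]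
    have e1 : (fun p : E3 × E3 × E3 => p.2.1) ∘ sig = fun p => p.2.2 := rfl
    have e2 : (fun p : E3 × E3 × E3 => p.2.1) ∘ sig ∘ sig = fun p => p.1 := rfl
    rw [e1, e2, map_Theta_fst, map_Theta_snd1, map_Theta_snd2, mu, big]
    congr 1
    abel
  · rw [map_pi0 meas_snd2]
    have e1 : (fun p : E3 × E3 × E3 => p.2.2) ∘ sig = fun p => p.1 := rfl
    have e2 : (fun p : E3 × E3 × E3 => p.2.2) ∘ sig ∘ sig = fun p => p.2.1 := rfl
    rw [e1, e2, map_Theta_fst, map_Theta_snd1, map_Theta_snd2, mu, big]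
    congr 1
    abel

/-- Integrating a cyclically invariant function against the reference plan. -/
lemma lint_pi0 {f : E3 × E3 × E3 → ℝ≥0∞} (hf : Measurable f) (hs : ∀ p, f (sig p) = f p) :
    ∫⁻ p, f p ∂pi0 = 6⁻¹ * (∫⁻ p, f p ∂Theta + ∫⁻ p, f p ∂Theta + ∫⁻ p, f p ∂Theta) := by
  rw [pi0, lintegral_smul_measure, lintegral_add_measure, lintegral_add_measure,
    lintegral_map hf measurable_sig, lintegral_map hf measurable_sig]
  simp only [hs]
  rw [lintegral_map hf measurable_sig]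
  simp only [hs, smul_eq_mul]

lemma lint_Theta {f : E3 × E3 × E3 → ℝ≥0∞} (hf : Measurable f) :
    ∫⁻ p, f p ∂Theta = ∫⁻ x, f (f1 x) ∂muA + ∫⁻ x, f (f2 x) ∂muA := by
  rw [Theta, lintegral_add_measure, lintegral_map hf measurable_f1, lintegral_map hf measurable_f2]

lemma coul_sig (p : E3 × E3 × E3) : coul (sig p) = coul p := by
  simp only [coul, sig, coulomb]
  rw [enorm_sub_rev p.2.1 p.1, enorm_sub_rev p.2.2 p.1]
  abel

lemma Uf_sig (p : E3 × E3 × E3) : Uf (sig p) = Uf p := by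
  simp only [Uf, sig]
  abel

lemma pi0_cost : ∫⁻ p, coul p ∂pi0 = Vv := by
  rw [← lint_Uf pi0_coupling, lint_pi0 measurable_coul coul_sig, lint_pi0 measurable_Uf Uf_sig,
    lint_Theta measurable_coul, lint_Theta measurable_Uf]
  have e1 : ∫⁻ x, coul (f1 x) ∂muA = ∫⁻ x, Uf (f1 x) ∂muA := by
    apply lintegral_congr_ae
    filter_upwards [ae_muA_mem] with x hx
    exact (contact_sheet1 hx).symm
  have e2 : ∫⁻ x, coul (f2 x) ∂muA = ∫⁻ x, Uf (f2 x) ∂muA := by
    apply lintegral_congr_ae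
    filter_upwards [ae_muA_mem] with x hx
    exact (contact_sheet2 hx).symm
  rw [e1, e2]

/-- The value of the problem. -/
theorem value_eq : kantorovichValue mu = Vv := by
  apply le_antisymm
  · calc kantorovichValue mu ≤ ∫⁻ p, coulomb p.1 p.2.1 p.2.2 ∂pi0 :=
        iInf₂_le pi0 pi0_coupling
      _ = Vv := pi0_cost
  · exact le_iInf₂ (fun π hπ => cost_ge hπ)

lemma value_lt_top : kantorovichValue mu < ⊤ := by
  rw [value_eq]
  exact Vv_lt_top

/-! ### Optimal Monge plans live on the contact set -/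

/-- For an optimal Monge plan, almost every triple `(x, T₂ x, T₃ x)` is a contact triple. -/
theorem monge_contact {T₂ T₃ : E3 → E3} (h : IsOptimalMonge mu T₂ T₃) :
    ∀ᵐ x ∂mu, Contact x (T₂ x) (T₃ x) := by
  obtain ⟨hm2, hm3, hp2, hp3, hc⟩ := h
  have a1 := ae_mu_Sb
  have a2 : ∀ᵐ x ∂mu, T₂ x ∈ Sb := by
    have := ae_mu_Sb
    rw [← hp2] at this
    exact ae_of_ae_map hm2.aemeasurable this
  have a3 : ∀ᵐ x ∂mu, T₃ x ∈ Sb := by
    have := ae_mu_Sb
    rw [← hp3] at this
    exact ae_of_ae_map hm3.aemeasurable this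
  have hle : (fun x => uE x + uE (T₂ x) + uE (T₃ x)) ≤ᵐ[mu] (fun x => coulomb x (T₂ x) (T₃ x)) := by
    filter_upwards [a1, a2, a3] with x h1 h2 h3
    exact (dual_ineq h1 h2 h3).1
  have m1 : Measurable uE := measurable_uE
  have m2 : Measurable (fun x => uE (T₂ x)) := measurable_uE.comp hm2
  have m3 : Measurable (fun x => uE (T₃ x)) := measurable_uE.comp hm3
  have hint : ∫⁻ x, (uE x + uE (T₂ x) + uE (T₃ x)) ∂mu = Vv := by
    have m12 : Measurable (fun x => uE x + uE (T₂ x)) := m1.add m2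
    rw [lintegral_add_left m12, lintegral_add_left m1]
    have b2 : ∫⁻ x, uE (T₂ x) ∂mu = ∫⁻ x, uE x ∂mu := by
      conv_rhs => rw [← hp2]
      rw [lintegral_map measurable_uE hm2]
    have b3 : ∫⁻ x, uE (T₃ x) ∂mu = ∫⁻ x, uE x ∂mu := by
      conv_rhs => rw [← hp3]
      rw [lintegral_map measurable_uE hm3]
    rw [b2, b3]
    rfl
  have hc' : ∫⁻ x, coulomb x (T₂ x) (T₃ x) ∂mu = Vv := by
    have : mongeCost mu T₂ T₃ = Vv := by rw [hc, value_eq]
    exact this
  have hmeas : Measurable (fun x => coulomb x (T₂ x) (T₃ x)) := by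
    have : (fun x => coulomb x (T₂ x) (T₃ x)) = coul ∘ (fun x => (x, T₂ x, T₃ x)) := rfl
    rw [this]
    exact measurable_coul.comp (measurable_id.prodMk (hm2.prodMk hm3))
  have heq : (fun x => uE x + uE (T₂ x) + uE (T₃ x)) =ᵐ[mu] (fun x => coulomb x (T₂ x) (T₃ x)) := by
    apply ae_eq_of_ae_le_of_lintegral_le hle
    · rw [hint]; exact Vv_lt_top.ne
    · exact hmeas.aemeasurable
    · rw [hint, hc']
  filter_upwards [a1, a2, a3, heq] with x h1 h2 h3 h4
  exact (dual_ineq h1 h2 h3).2 h4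

end

end Vale.Agent.P121
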